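import Vale.Agent.P254.S290.IdentBL

set_option linter.all false

/-!
# P254, S-ID: the integrated Monge-Ampere inequality with the weight `p(M) = al + ga M + be M²`
-/

open MeasureTheory Filter Topology
open scoped NNReal ContDiff MatrixOrder

namespace Vale.Agent.P254.S290

variable {n : ℕ} {φ U V : E n → ℝ} {c C K a : ℝ}

/-- the weight `al + ga M + be M²` -/
noncomputable def Pw (al ga be : ℝ) (M : Matrix (Fin n) (Fin n) ℝ) : Matrix (Fin n) (Fin n) ℝ :=
  al • (1 : Matrix (Fin n) (Fin n) ℝ) + ga • M + be • (M * M)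

/-- `D_a = ∂_a D²φ` -/
noncomputable def Dm (φ : E n → ℝ) (a : Fin n) (z : E n) : Matrix (Fin n) (Fin n) ℝ :=
  fun i j => pd a (fun y => hess φ y i j) z

lemma Dm_apply (a i j : Fin n) (z : E n) : Dm φ a z i j = T3 φ z a i j := rfl

lemma psd_of_qf {A : Matrix (Fin n) (Fin n) ℝ} (hs : A.transpose = A) (h : ∀ v : E n, 0 ≤ qf A v) :
    A.PosSemidef := by
  refine Matrix.PosSemidef.of_dotProduct_mulVec_nonneg ?_ ?_
  · rw [Matrix.IsHermitian, Matrix.conjTranspose_eq_transpose_of_trivial]; exact hs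
  · intro x
    have h1 := h (WithLp.toLp 2 x)
    rw [qf_eq] at h1
    have h2 : star x ⬝ᵥ A.mulVec x = ∑ i, x i * (A.mulVec x) i := by
      simp [dotProduct]
    rw [h2]
    exact h1

/-- trace of a product of positive semidefinite matrices -/
lemma trace_mul_nonneg {A B : Matrix (Fin n) (Fin n) ℝ} (hA : A.PosSemidef) (hB : B.PosSemidef) :
    0 ≤ (A * B).trace := by
  obtain ⟨X, hX⟩ := CStarAlgebra.nonneg_iff_eq_star_mul_self.mp hA.nonneg
  rw [hX, Matrix.star_eq_conjTranspose, mul_assoc, Matrix.trace_mul_comm, mul_assoc]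
  have := (hB.mul_mul_conjTranspose_same X).trace_nonneg
  rwa [mul_assoc] at this

lemma hess_psd (h : PC φ c C K) (z : E n) : (hess φ z).PosSemidef :=
  psd_of_qf (hess_transpose h z) fun v => (mul_nonneg h.c_pos.le (sq_nonneg _)).trans (h.lower z v)

lemma Pw_psd {al ga be : ℝ} (hal : 0 ≤ al) (hga : 0 ≤ ga) (hbe : 0 ≤ be)
    {M : Matrix (Fin n) (Fin n) ℝ} (hM : M.PosSemidef) : (Pw al ga be M).PosSemidef := by
  unfold Pw
  have h1 : (M * M).PosSemidef := by
    have := hM.pow 2
    rwa [pow_two] at this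
  exact ((Matrix.PosSemidef.one.smul hal).add (hM.smul hga)).add (h1.smul hbe)

lemma Pw_apply (al ga be : ℝ) (M : Matrix (Fin n) (Fin n) ℝ) (i j : Fin n) :
    Pw al ga be M i j = al * (1 : Matrix (Fin n) (Fin n) ℝ) i j + ga * M i j + be * ∑ k, M i k * M k j := by
  simp [Pw, Matrix.mul_apply]

lemma Pw_BL (h : PC φ c C K) (al ga be : ℝ) (i j : Fin n) : BL (fun z => Pw al ga be (hess φ z) i j) := by
  simp only [Pw_apply]
  refine ((BL.const _).add ((BL.const ga).mul (hess_BL h i j))).add ((BL.const be).mul ?_)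
  exact BL.sum _ fun k _ => (hess_BL h i k).mul (hess_BL h k j)

lemma pd_Pw (h : PC φ c C K) {z : E n} (hz : Good φ z) (al ga be : ℝ) (a i j : Fin n) :
    pd a (fun z => Pw al ga be (hess φ z) i j) z =
      (ga • Dm φ a z + be • (Dm φ a z * hess φ z + hess φ z * Dm φ a z)) i j := by
  simp only [Pw_apply]
  have d1 : DifferentiableAt ℝ (fun z => al * (1 : Matrix (Fin n) (Fin n) ℝ) i j) z := differentiableAt_const _
  have d2 : DifferentiableAt ℝ (fun z => ga * hess φ z i j) z := (hz.1 i j).const_mul _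
  have d4 : ∀ k ∈ (Finset.univ : Finset (Fin n)), DifferentiableAt ℝ (fun z => hess φ z i k * hess φ z k j) z :=
    fun k _ => (hz.1 i k).fun_mul (hz.1 k j)
  have d3 : DifferentiableAt ℝ (fun z => ∑ k, hess φ z i k * hess φ z k j) z := DifferentiableAt.fun_sum d4
  rw [pd_add (d1.fun_add d2) (d3.const_mul _), pd_add d1 d2, pd_const,
    pd_mul (differentiableAt_const ga) (hz.1 i j), pd_mul (differentiableAt_const be) d3, pd_const, pd_const,
    pd_sum _ d4]
  have e : ∀ k, pd a (fun z => hess φ z i k * hess φ z k j) z =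
      Dm φ a z i k * hess φ z k j + hess φ z i k * Dm φ a z k j := fun k => by
    rw [pd_mul (hz.1 i k) (hz.1 k j)]; rfl
  simp only [e, Matrix.add_apply, Matrix.smul_apply, smul_eq_mul, Matrix.mul_apply, Finset.sum_add_distrib]
  have e2 : pd a (fun z => hess φ z i j) z = Dm φ a z i j := rfl
  rw [e2]; ring

lemma Dm_symm (h : PC φ c C K) (a i j : Fin n) (z : E n) : Dm φ a z i j = Dm φ a z j i :=
  T3_symm23 h z a i j

/-- the two quadratic terms -/
noncomputable def Lq (al ga be : ℝ) (φ : E n → ℝ) (z : E n) : ℝ :=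
  ∑ i, ∑ j, (Pw al ga be (hess φ z)) i j * ((hess φ z)⁻¹ * Dm φ i z * (hess φ z)⁻¹ * Dm φ j z).trace +
    ∑ a, ∑ b, (hess φ z)⁻¹ a b *
      (Dm φ a z * (ga • Dm φ b z + be • (Dm φ b z * hess φ z + hess φ z * Dm φ b z))).trace

lemma trace_four (A B C D : Matrix (Fin n) (Fin n) ℝ) :
    (A * B * C * D).trace = ∑ p, ∑ q, ∑ r, ∑ s, A p r * B r s * C s q * D q p := by
  simp only [Matrix.trace, Matrix.diag, Matrix.mul_apply, Finset.sum_mul]
  refine Finset.sum_congr rfl fun p _ => Finset.sum_congr rfl fun q _ => ?_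
  rw [Finset.sum_comm]

lemma Sf_eq (h : PC φ c C K) (z : E n) (i j : Fin n) :
    ((hess φ z)⁻¹ * Dm φ i z * (hess φ z)⁻¹ * Dm φ j z).trace = Sf φ z i j := by
  rw [trace_four]
  unfold Sf
  refine Finset.sum_congr rfl fun p _ => Finset.sum_congr rfl fun q _ => Finset.sum_congr rfl fun r _ =>
    Finset.sum_congr rfl fun s _ => ?_
  rw [Dm_symm h j q p z]
  rfl

lemma MWM_eq (z : E n) (i j : Fin n) :
    MWM φ U z i j = (hess φ z * hess U (gr φ z) * hess φ z) i j := by
  unfold MWM
  simp only [Matrix.mul_apply, Finset.sum_mul]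

lemma trace_mul_eq (A B : Matrix (Fin n) (Fin n) ℝ) (hB : ∀ i j, B i j = B j i) :
    (A * B).trace = ∑ i, ∑ j, A i j * B i j := by
  simp only [Matrix.trace, Matrix.diag, Matrix.mul_apply]
  exact Finset.sum_congr rfl fun i _ => Finset.sum_congr rfl fun j _ => by rw [hB j i]

/-- pointwise identity at the good points -/
lemma sum_Xf_good (h : PC φ c C K) (hU : ContDiff ℝ 2 U) (hV : ContDiff ℝ 2 V) {z : E n} (hz : Good φ z)
    (al ga be : ℝ) :
    ∑ i, ∑ j, Xf φ U V i j (fun z => Pw al ga be (hess φ z) i j) z =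
      (Pw al ga be (hess φ z) * hess V z).trace - Lq al ga be φ z
        - (Pw al ga be (hess φ z) * (hess φ z * hess U (gr φ z) * hess φ z)).trace := by
  have hsV : ∀ i j, hess V z i j = hess V z j i := fun i j => hess_symm hV z i j
  have hsM : ∀ i j, hess φ z i j = hess φ z j i := fun i j => hess_symm h.C2 z i j
  have hsU : (hess U (gr φ z)).transpose = hess U (gr φ z) := by
    ext i j; exact hess_symm hU (gr φ z) j i
  have hsMt := hess_transpose h z
  have hsN : ∀ i j, (hess φ z * hess U (gr φ z) * hess φ z) i j = (hess φ z * hess U (gr φ z) * hess φ z) j i := by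
    intro i j
    have : (hess φ z * hess U (gr φ z) * hess φ z).transpose = hess φ z * hess U (gr φ z) * hess φ z := by
      rw [Matrix.transpose_mul, Matrix.transpose_mul, hsMt, hsU, mul_assoc]
    exact (congrFun (congrFun this j) i)
  rw [trace_mul_eq _ _ hsV, trace_mul_eq _ _ hsN]
  have e1 : ∀ i j, Xf φ U V i j (fun z => Pw al ga be (hess φ z) i j) z =
      Pw al ga be (hess φ z) i j * hess V z i j
        - Pw al ga be (hess φ z) i j * ((hess φ z)⁻¹ * Dm φ i z * (hess φ z)⁻¹ * Dm φ j z).trace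
        - Pw al ga be (hess φ z) i j * (hess φ z * hess U (gr φ z) * hess φ z) i j
        - ∑ a, ∑ b, tau φ z a b *
          ((ga • Dm φ a z + be • (Dm φ a z * hess φ z + hess φ z * Dm φ a z)) i j * Dm φ b z i j) := by
    intro i j
    unfold Xf
    rw [Sf_eq h, ← MWM_eq]
    have e2 : ∀ a b, tau φ z a b * pd a (fun z => Pw al ga be (hess φ z) i j) z * T3 φ z b i j =
        tau φ z a b * ((ga • Dm φ a z + be • (Dm φ a z * hess φ z + hess φ z * Dm φ a z)) i j * Dm φ b z i j) := by
      intro a b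
      rw [pd_Pw h hz, mul_assoc, Dm_apply b i j]
    simp only [e2]
    ring
  simp only [e1, Finset.sum_sub_distrib]
  have e3 : ∑ i, ∑ j, ∑ a, ∑ b, tau φ z a b *
          ((ga • Dm φ a z + be • (Dm φ a z * hess φ z + hess φ z * Dm φ a z)) i j * Dm φ b z i j) =
      ∑ a, ∑ b, (hess φ z)⁻¹ a b *
      (Dm φ a z * (ga • Dm φ b z + be • (Dm φ b z * hess φ z + hess φ z * Dm φ b z))).trace := by
    have s1 : ∀ i, ∑ j, ∑ a, ∑ b, tau φ z a b *
          ((ga • Dm φ a z + be • (Dm φ a z * hess φ z + hess φ z * Dm φ a z)) i j * Dm φ b z i j) =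
        ∑ a, ∑ b, ∑ j, tau φ z a b *
          ((ga • Dm φ a z + be • (Dm φ a z * hess φ z + hess φ z * Dm φ a z)) i j * Dm φ b z i j) := by
      intro i
      rw [Finset.sum_comm]
      exact Finset.sum_congr rfl fun a _ => Finset.sum_comm
    simp only [s1]
    rw [Finset.sum_comm]
    rw [Finset.sum_comm (s := (Finset.univ : Finset (Fin n))) (t := (Finset.univ : Finset (Fin n)))
      (f := fun a b => (hess φ z)⁻¹ a b *
      (Dm φ a z * (ga • Dm φ b z + be • (Dm φ b z * hess φ z + hess φ z * Dm φ b z))).trace)]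
    refine Finset.sum_congr rfl fun a _ => ?_
    rw [Finset.sum_comm]
    refine Finset.sum_congr rfl fun b _ => ?_
    have hsD : ∀ i j, (ga • Dm φ a z + be • (Dm φ a z * hess φ z + hess φ z * Dm φ a z)) i j =
        (ga • Dm φ a z + be • (Dm φ a z * hess φ z + hess φ z * Dm φ a z)) j i := by
      intro i j
      simp only [Matrix.add_apply, Matrix.smul_apply, smul_eq_mul, Matrix.mul_apply]
      rw [Dm_symm h a i j z]
      have : ∀ i j, ∑ k, Dm φ a z i k * hess φ z k j = ∑ k, hess φ z j k * Dm φ a z k i := by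
        intro i j
        refine Finset.sum_congr rfl fun k _ => ?_
        rw [Dm_symm h a i k z, hsM k j]; ring
      rw [this i j, this j i]; ring
    rw [trace_mul_eq _ _ hsD, tau_symm h z a b, Finset.mul_sum]
    refine Finset.sum_congr rfl fun i _ => ?_
    rw [Finset.mul_sum]
    refine Finset.sum_congr rfl fun j _ => ?_
    unfold tau
    ring
  rw [e3]
  unfold Lq
  ring

/-- **S-ID**, general form: for `U` convex and the Monge-Ampere equation
`U (∇φ) = V + log det D²φ + a`,
`∫ e^{-V} (tr (p(M) D²V) - [quadratic terms]) ≥ 0`. -/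
theorem s_id (h : PC φ c C K) (hU : ContDiff ℝ 2 U) (hV : ContDiff ℝ 2 V) (hMA : MA φ U V a)
    {BU BV : ℝ} (hBU : ∀ y i j, |hess U y i j| ≤ BU) (hBV : ∀ y i j, |hess V y i j| ≤ BV)
    (hI : Integrable fun z => Real.exp (-V z)) (hcv : ∀ y v, 0 ≤ qf (hess U y) v)
    {al ga be : ℝ} (hal : 0 ≤ al) (hga : 0 ≤ ga) (hbe : 0 ≤ be) :
    (Integrable fun z => Real.exp (-V z) * (Pw al ga be (hess φ z) * hess V z).trace) ∧
    (Integrable fun z => Real.exp (-V z) * Lq al ga be φ z) ∧
    ∫ z, Real.exp (-V z) * Lq al ga be φ z ≤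
      ∫ z, Real.exp (-V z) * (Pw al ga be (hess φ z) * hess V z).trace := by
  have hX : ∀ i j, Integrable fun z => Real.exp (-V z) *
      Xf φ U V i j (fun z => Pw al ga be (hess φ z) i j) z := fun i j =>
    integrable_Xf h hV hBU hBV hI (Pw_BL h al ga be i j) i j
  have hX0 : ∀ i j, ∫ z, Real.exp (-V z) * Xf φ U V i j (fun z => Pw al ga be (hess φ z) i j) z = 0 :=
    fun i j => ident_BL h hU hV hMA hBU hBV hI (Pw_BL h al ga be i j) i j
  have hs : ∫ z, Real.exp (-V z) * ∑ i, ∑ j, Xf φ U V i j (fun z => Pw al ga be (hess φ z) i j) z = 0 := by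
    simp only [Finset.mul_sum]
    rw [integral_finsetSum _ fun i _ => integrable_finsetSum _ fun j _ => hX i j]
    refine Finset.sum_eq_zero fun i _ => ?_
    rw [integral_finsetSum _ fun j _ => hX i j]
    exact Finset.sum_eq_zero fun j _ => hX0 i j
  have hsI : Integrable fun z => Real.exp (-V z) *
      ∑ i, ∑ j, Xf φ U V i j (fun z => Pw al ga be (hess φ z) i j) z := by
    simp only [Finset.mul_sum]
    exact integrable_finsetSum _ fun i _ => integrable_finsetSum _ fun j _ => hX i j
  -- integrability of the simple terms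
  have hPb : ∀ i j, ∃ B : ℝ, ∀ z, |Pw al ga be (hess φ z) i j| ≤ B := fun i j => by
    obtain ⟨_, B, _, hB⟩ := Pw_BL h al ga be i j
    exact ⟨B, hB⟩
  have hPm : ∀ i j, Measurable fun z => Pw al ga be (hess φ z) i j := fun i j =>
    (Pw_BL h al ga be i j).continuous.measurable
  have hsV : ∀ z i j, hess V z i j = hess V z j i := fun z i j => hess_symm hV z i j
  have hI1 : Integrable fun z => Real.exp (-V z) * (Pw al ga be (hess φ z) * hess V z).trace := by
    have : ∀ z, Real.exp (-V z) * (Pw al ga be (hess φ z) * hess V z).trace =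
        ∑ i, ∑ j, Real.exp (-V z) * (Pw al ga be (hess φ z) i j * hess V z i j) := by
      intro z
      rw [trace_mul_eq _ _ (hsV z)]
      simp only [Finset.mul_sum]
    simp only [this]
    refine integrable_finsetSum _ fun i _ => integrable_finsetSum _ fun j _ => ?_
    obtain ⟨B, hB⟩ := hPb i j
    refine hI.mul_bdd (c := B * BV) ((hPm i j).mul (measurable_hess V i j)).aestronglyMeasurable ?_
    refine Eventually.of_forall fun z => ?_
    rw [Real.norm_eq_abs, abs_mul]
    exact mul_le_mul (hB z) (hBV z i j) (abs_nonneg _) ((abs_nonneg _).trans (hB z))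
  have hNs : ∀ z i j, (hess φ z * hess U (gr φ z) * hess φ z) i j =
      (hess φ z * hess U (gr φ z) * hess φ z) j i := by
    intro z i j
    have hsU : (hess U (gr φ z)).transpose = hess U (gr φ z) := by
      ext i j; exact hess_symm hU (gr φ z) j i
    have : (hess φ z * hess U (gr φ z) * hess φ z).transpose = hess φ z * hess U (gr φ z) * hess φ z := by
      rw [Matrix.transpose_mul, Matrix.transpose_mul, hess_transpose h z, hsU, mul_assoc]
    exact (congrFun (congrFun this j) i)
  have hI2 : Integrable fun z => Real.exp (-V z) *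
      (Pw al ga be (hess φ z) * (hess φ z * hess U (gr φ z) * hess φ z)).trace := by
    have : ∀ z, Real.exp (-V z) * (Pw al ga be (hess φ z) * (hess φ z * hess U (gr φ z) * hess φ z)).trace =
        ∑ i, ∑ j, Real.exp (-V z) * (Pw al ga be (hess φ z) i j * MWM φ U z i j) := by
      intro z
      rw [trace_mul_eq _ _ (hNs z)]
      simp only [Finset.mul_sum, MWM_eq]
    simp only [this]
    refine integrable_finsetSum _ fun i _ => integrable_finsetSum _ fun j _ => ?_
    obtain ⟨B, hB⟩ := hPb i j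
    refine hI.mul_bdd (c := B * ((n : ℝ) ^ 2 * (2 * |C| * BU * (2 * |C|))))
      ((hPm i j).mul (measurable_MWM h i j)).aestronglyMeasurable ?_
    refine Eventually.of_forall fun z => ?_
    rw [Real.norm_eq_abs, abs_mul]
    exact mul_le_mul (hB z) (MWM_abs_le h hBU z i j) (abs_nonneg _) ((abs_nonneg _).trans (hB z))
  have hpt : ∀ᵐ z, Real.exp (-V z) * Lq al ga be φ z =
      Real.exp (-V z) * (Pw al ga be (hess φ z) * hess V z).trace
      - Real.exp (-V z) * (Pw al ga be (hess φ z) * (hess φ z * hess U (gr φ z) * hess φ z)).trace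
      - Real.exp (-V z) * ∑ i, ∑ j, Xf φ U V i j (fun z => Pw al ga be (hess φ z) i j) z := by
    filter_upwards [ae_good h] with z hz
    rw [sum_Xf_good h hU hV hz]; ring
  have hI3 : Integrable fun z => Real.exp (-V z) * Lq al ga be φ z :=
    ((hI1.sub hI2).sub hsI).congr (hpt.mono fun z hz => hz.symm)
  refine ⟨hI1, hI3, ?_⟩
  have hI12 : Integrable fun z => Real.exp (-V z) * (Pw al ga be (hess φ z) * hess V z).trace
      - Real.exp (-V z) * (Pw al ga be (hess φ z) * (hess φ z * hess U (gr φ z) * hess φ z)).trace := hI1.sub hI2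
  have e1 : ∫ z, (Real.exp (-V z) * (Pw al ga be (hess φ z) * hess V z).trace
      - Real.exp (-V z) * (Pw al ga be (hess φ z) * (hess φ z * hess U (gr φ z) * hess φ z)).trace
      - Real.exp (-V z) * ∑ i, ∑ j, Xf φ U V i j (fun z => Pw al ga be (hess φ z) i j) z) =
      (∫ z, (Real.exp (-V z) * (Pw al ga be (hess φ z) * hess V z).trace
      - Real.exp (-V z) * (Pw al ga be (hess φ z) * (hess φ z * hess U (gr φ z) * hess φ z)).trace))
      - ∫ z, Real.exp (-V z) * ∑ i, ∑ j, Xf φ U V i j (fun z => Pw al ga be (hess φ z) i j) z :=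
    integral_sub hI12 hsI
  have e2 : ∫ z, (Real.exp (-V z) * (Pw al ga be (hess φ z) * hess V z).trace
      - Real.exp (-V z) * (Pw al ga be (hess φ z) * (hess φ z * hess U (gr φ z) * hess φ z)).trace) =
      (∫ z, Real.exp (-V z) * (Pw al ga be (hess φ z) * hess V z).trace)
      - ∫ z, Real.exp (-V z) * (Pw al ga be (hess φ z) * (hess φ z * hess U (gr φ z) * hess φ z)).trace :=
    integral_sub hI1 hI2
  rw [integral_congr_ae hpt, e1, e2, hs, sub_zero]
  have hnn : 0 ≤ ∫ z, Real.exp (-V z) *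
      (Pw al ga be (hess φ z) * (hess φ z * hess U (gr φ z) * hess φ z)).trace := by
    refine integral_nonneg fun z => mul_nonneg (Real.exp_pos _).le ?_
    refine trace_mul_nonneg (Pw_psd hal hga hbe (hess_psd h z)) ?_
    have hsU : (hess U (gr φ z)).transpose = hess U (gr φ z) := by
      ext i j; exact hess_symm hU (gr φ z) j i
    have h1 := (psd_of_qf hsU (hcv (gr φ z))).mul_mul_conjTranspose_same (hess φ z)
    rwa [Matrix.conjTranspose_eq_transpose_of_trivial, hess_transpose h z] at h1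
  linarith

end Vale.Agent.P254.S290
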