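import Vale.Agent.P254.S.H130.StmtID
import Vale.Agent.P254.S290.Final

set_option linter.all false

/-!
# P254, S-ID: `Vale.Agent.P254.S130.StmtID`
-/

open MeasureTheory Filter Topology
open scoped NNReal ContDiff MatrixOrder

namespace Vale.Agent.P254.S290

lemma gr_eq_gradient {n : ℕ} (φ : E n → ℝ) (z : E n) : gr φ z = gradient φ z := by
  ext i
  have h1 : inner ℝ (gradient φ z) (ei i : E n) = fderiv ℝ φ z (ei i) := by
    rw [gradient, InnerProductSpace.toDual_symm_apply]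
  have h2 : inner ℝ (gradient φ z) (ei i : E n) = gradient φ z i := by
    rw [ei, EuclideanSpace.inner_single_right]
    simp
  show pd i φ z = _
  rw [← h2, h1]
  rfl

lemma hess_abs_of_bdd {n : ℕ} {V : E n → ℝ} (hV : ContDiff ℝ 2 V) {B : ℝ}
    (hB : ∀ x, ‖iteratedFDeriv ℝ 2 V x‖ ≤ B) (x : E n) (i j : Fin n) : |hess V x i j| ≤ B := by
  have h1 : Differentiable ℝ (fderiv ℝ V) :=
    (hV.fderiv_right (m := 1) (by norm_num)).differentiable (by norm_num)
  have key : hess V x i j = iteratedFDeriv ℝ 2 V x ![ei i, ei j] := by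
    rw [iteratedFDeriv_two_apply]
    unfold hess pd
    have := fderiv_clm_apply (𝕜 := ℝ) (c := fun y => fderiv ℝ V y) (u := fun _ => (ei j : E n))
      (x := x) h1.differentiableAt (differentiableAt_const _)
    rw [this]; simp
  rw [key, ← Real.norm_eq_abs]
  refine ((iteratedFDeriv ℝ 2 V x).le_opNorm _).trans ?_
  rw [Fin.prod_univ_two]
  simp only [Matrix.cons_val_zero, Matrix.cons_val_one, norm_ei, mul_one]
  exact hB x

lemma contDiff_Q {n : ℕ} : ContDiff ℝ 2 (fun z : E n => ‖z‖ ^ 2 / 2) :=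
  (contDiff_norm_sq ℝ).div_const 2

lemma pd_Q {n : ℕ} (j : Fin n) (z : E n) : pd j (fun z : E n => ‖z‖ ^ 2 / 2) z = z j := by
  unfold pd
  have h1 : HasFDerivAt (fun z : E n => ‖z‖ ^ 2 / 2) ((1 / 2 : ℝ) • (2 • (innerSL ℝ z))) z := by
    have := ((hasStrictFDerivAt_norm_sq z).hasFDerivAt).const_mul (1 / 2 : ℝ)
    refine this.congr_of_eventuallyEq (Eventually.of_forall fun y => ?_)
    simp only
    ring
  rw [h1.fderiv]
  simp [ei, EuclideanSpace.inner_single_right]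

lemma hess_Q {n : ℕ} (z : E n) : hess (fun z : E n => ‖z‖ ^ 2 / 2) z = 1 := by
  ext i j
  show pd i (pd j (fun z : E n => ‖z‖ ^ 2 / 2)) z = _
  have : pd j (fun z : E n => ‖z‖ ^ 2 / 2) = fun z => (EuclideanSpace.proj j : E n →L[ℝ] ℝ) z := by
    funext z; exact pd_Q j z
  rw [this]
  unfold pd
  rw [ContinuousLinearMap.fderiv]
  simp [ei, Matrix.one_apply, Pi.single_apply, eq_comm]

lemma int_exp_Q {n : ℕ} : Integrable fun z : E n => Real.exp (-(‖z‖ ^ 2 / 2)) := by
  have h := GaussianFourier.integral_rexp_neg_mul_sq_norm (V := E n) (b := 1 / 2) (by norm_num)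
  have e : (fun z : E n => Real.exp (-(‖z‖ ^ 2 / 2))) = fun z : E n => Real.exp (-(1 / 2) * ‖z‖ ^ 2) := by
    funext z; congr 1; ring
  rw [e]
  by_contra hc
  rw [integral_undef hc] at h
  have : (0 : ℝ) < (Real.pi / (1 / 2)) ^ ((Module.finrank ℝ (E n) : ℝ) / 2) := by positivity
  linarith

/-- **S-ID** -/
theorem stmtID : Vale.Agent.P254.S130.StmtID := by
  intro n φ V c C a b M κ hV hB α γ β hα hγ hβ
  have hpc : PC φ a b M := ⟨hB.a_pos, hB.C2, hB.lower, hB.upper, hB.lip⟩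
  have hVC : ContDiff ℝ 2 V := hV.smooth.of_le (by norm_cast)
  have hMA : MA φ V (fun z : E n => ‖z‖ ^ 2 / 2) κ := by
    intro z
    rw [gr_eq_gradient]
    exact hB.ma z
  obtain ⟨BU, hBU⟩ := hV.bdd 2 le_rfl
  have hBU' : ∀ y i j, |hess V y i j| ≤ BU := fun y i j => hess_abs_of_bdd hVC hBU y i j
  have hBV : ∀ y i j, |hess (fun z : E n => ‖z‖ ^ 2 / 2) y i j| ≤ 1 := by
    intro y i j
    rw [hess_Q, Matrix.one_apply]
    split_ifs <;> simp
  have hcv : ∀ y v, 0 ≤ qf (hess V y) v := fun y v =>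
    (mul_nonneg hV.c_pos.le (sq_nonneg _)).trans (hV.lower y v)
  obtain ⟨h1, h2, h3⟩ := s_id hpc hVC contDiff_Q hMA hBU' hBV int_exp_Q hcv hα hγ hβ
  unfold Vale.Agent.P227.M.Ex
  refine div_le_div_of_nonneg_right ?_ (integral_nonneg fun z => (Real.exp_pos _).le)
  have e1 : ∫ z : E n, Real.exp (-(‖z‖ ^ 2 / 2)) * (Pw α γ β (hess φ z) * hess (fun z : E n => ‖z‖ ^ 2 / 2) z).trace =
      ∫ z : E n, (α • (1 : Matrix (Fin n) (Fin n) ℝ) + γ • Vale.Agent.P227.M.hess φ z +
        β • (Vale.Agent.P227.M.hess φ z * Vale.Agent.P227.M.hess φ z)).trace * Real.exp (-Vale.Agent.P254.S.Q z) := by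
    refine integral_congr_ae (Eventually.of_forall fun z => ?_)
    simp only
    rw [hess_Q, mul_one, mul_comm]
    rfl
  have e2 : ∫ z : E n, Real.exp (-(‖z‖ ^ 2 / 2)) * Lq α γ β φ z =
      ∫ z : E n, (∑ i, ∑ j, (α • (1 : Matrix (Fin n) (Fin n) ℝ) + γ • Vale.Agent.P227.M.hess φ z +
          β • (Vale.Agent.P227.M.hess φ z * Vale.Agent.P227.M.hess φ z)) i j *
          ((Vale.Agent.P227.M.hess φ z)⁻¹ * Vale.Agent.P254.S130.D3 φ i z * (Vale.Agent.P227.M.hess φ z)⁻¹ *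
            Vale.Agent.P254.S130.D3 φ j z).trace +
        ∑ a, ∑ b, (Vale.Agent.P227.M.hess φ z)⁻¹ a b *
          (Vale.Agent.P254.S130.D3 φ a z * (γ • Vale.Agent.P254.S130.D3 φ b z +
            β • (Vale.Agent.P254.S130.D3 φ b z * Vale.Agent.P227.M.hess φ z +
              Vale.Agent.P227.M.hess φ z * Vale.Agent.P254.S130.D3 φ b z))).trace) *
              Real.exp (-Vale.Agent.P254.S.Q z) := by
    refine integral_congr_ae (Eventually.of_forall fun z => ?_)
    simp only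
    rw [mul_comm]
    rfl
  rw [← e1, ← e2]
  exact h3

end Vale.Agent.P254.S290
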