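import Mathlib

set_option linter.all false

/-! # P254, S-ID: the pointwise algebra of the integrated Monge-Ampere identity -/

namespace Vale.Agent.P254.S290

open Finset

lemma ident_alg {n : ℕ} (τ M W : Fin n → Fin n → ℝ) (T : Fin n → Fin n → Fin n → ℝ)
    (Q v df : Fin n → ℝ) (vij f w : ℝ) (i j : Fin n)
    (hτ : ∀ a b, τ a b = τ b a) (hM : ∀ a b, M a b = M b a)
    (hMτ : ∀ a k, ∑ b, τ a b * M b k = if a = k then 1 else 0)
    (h12 : ∀ a b k, T a b k = T b a k) (h23 : ∀ a b k, T a b k = T a k b)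
    (hL : ∀ j, ∑ a, ∑ b, τ a b * T j a b = ∑ k, M j k * Q k - v j) :
    (∑ a, ∑ b, (T a j b * (-(∑ p, ∑ q, τ a p * T i p q * τ q b) * (f * w)
          + τ a b * (w * (df i - f * v i)))
        - T i j b * (-(∑ p, ∑ q, τ a p * T a p q * τ q b) * (f * w)
          + τ a b * (w * (df a - f * v a)))))
      - (w * (df i - f * v i) * (∑ k, M j k * Q k - v j)
          + f * w * (∑ k, (T i j k * Q k + M j k * ∑ l, W l k * M i l) - vij))
      = w * (f * (vij - (∑ a, ∑ b, ∑ p, ∑ q, τ a p * T i p q * τ q b * T j a b)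
            - ∑ k, ∑ l, M i l * W l k * M k j)
          - ∑ a, ∑ b, τ a b * df a * T b i j) := by
  -- the four contractions
  have e1 : ∑ a, ∑ b, T a j b * τ a b = ∑ k, M j k * Q k - v j := by
    rw [← hL j]
    refine sum_congr rfl fun a _ => sum_congr rfl fun b _ => ?_
    rw [h12 a j b]; ring
  have e2 : ∑ a, ∑ b, T a j b * (∑ p, ∑ q, τ a p * T i p q * τ q b)
      = ∑ a, ∑ b, ∑ p, ∑ q, τ a p * T i p q * τ q b * T j a b := by
    refine sum_congr rfl fun a _ => sum_congr rfl fun b _ => ?_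
    rw [mul_sum]
    refine sum_congr rfl fun p _ => ?_
    rw [mul_sum]
    refine sum_congr rfl fun q _ => ?_
    rw [h12 a j b]; ring
  have e3 : ∀ b, ∑ a, ∑ p, ∑ q, τ a p * T a p q * τ q b = Q b - ∑ q, v q * τ q b := by
    intro b
    have h1 : ∑ a, ∑ p, ∑ q, τ a p * T a p q * τ q b
        = ∑ q, (∑ a, ∑ p, τ a p * T q a p) * τ q b := by
      have h2 : ∀ a, ∑ p, ∑ q, τ a p * T a p q * τ q b = ∑ q, ∑ p, τ a p * T a p q * τ q b :=
        fun a => sum_comm
      simp only [h2]
      rw [sum_comm]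
      refine sum_congr rfl fun q _ => ?_
      rw [sum_mul]
      refine sum_congr rfl fun a _ => ?_
      rw [sum_mul]
      refine sum_congr rfl fun p _ => ?_
      rw [h23 a p q, h12 a q p]
    rw [h1]
    simp only [hL, sub_mul, sum_sub_distrib, sum_mul]
    congr 1
    rw [sum_comm]
    have h3 : ∀ k, ∑ q, M q k * Q k * τ q b = Q k * (if b = k then 1 else 0) := by
      intro k
      rw [← hMτ b k, mul_sum]
      refine sum_congr rfl fun q _ => ?_
      rw [hτ q b]; ring
    simp only [h3]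
    simp
  have e4 : ∑ k, M j k * ∑ l, W l k * M i l = ∑ k, ∑ l, M i l * W l k * M k j := by
    refine sum_congr rfl fun k _ => ?_
    rw [mul_sum]
    refine sum_congr rfl fun l _ => ?_
    rw [hM j k]; ring
  -- expand the left side
  have s1 : (∑ a, ∑ b, (T a j b * (-(∑ p, ∑ q, τ a p * T i p q * τ q b) * (f * w)
          + τ a b * (w * (df i - f * v i)))
        - T i j b * (-(∑ p, ∑ q, τ a p * T a p q * τ q b) * (f * w)
          + τ a b * (w * (df a - f * v a)))))
      = -(f * w) * (∑ a, ∑ b, T a j b * (∑ p, ∑ q, τ a p * T i p q * τ q b))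
        + (w * (df i - f * v i)) * (∑ a, ∑ b, T a j b * τ a b)
        + (f * w) * (∑ b, T i j b * ∑ a, ∑ p, ∑ q, τ a p * T a p q * τ q b)
        - w * (∑ a, ∑ b, τ a b * df a * T b i j) + (f * w) * ∑ b, T i j b * ∑ q, v q * τ q b := by
    have t3 : ∑ b, T i j b * ∑ a, ∑ p, ∑ q, τ a p * T a p q * τ q b
        = ∑ a, ∑ b, T i j b * ∑ p, ∑ q, τ a p * T a p q * τ q b := by
      rw [sum_comm]
      exact sum_congr rfl fun b _ => by rw [mul_sum]
    have t4 : ∑ b, T i j b * ∑ q, v q * τ q b = ∑ a, ∑ b, T i j b * (v a * τ a b) := by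
      rw [sum_comm]
      exact sum_congr rfl fun b _ => by rw [mul_sum]
    rw [t3, t4]
    simp only [mul_sum, ← sum_add_distrib, ← sum_sub_distrib]
    refine sum_congr rfl fun a _ => sum_congr rfl fun b _ => ?_
    have t5 : T b i j = T i j b := by rw [h12 b i j, h23 i b j]
    rw [t5]
    simp only [← mul_sum]
    ring
  rw [s1, e1, e2]
  have s2 : ∑ b, T i j b * ∑ a, ∑ p, ∑ q, τ a p * T a p q * τ q b
      = ∑ b, T i j b * Q b - ∑ b, T i j b * ∑ q, v q * τ q b := by
    simp only [e3, mul_sub, sum_sub_distrib]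
  rw [s2, sum_add_distrib, e4]
  ring

end Vale.Agent.P254.S290
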