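import Mathlib

set_option linter.all false

/-!
# P254, block S (near-sharp slicing), leaf S-ID (helper290): calculus for `C^{2,1}` potentials

`E n = EuclideanSpace ℝ (Fin n)`; `pd`, `hess`, `qf` are literally the definitions of
`Vale.Agent.P227.M` (so the two are equal by `rfl`).
-/

open MeasureTheory Filter Topology
open scoped NNReal ContDiff

namespace Vale.Agent.P254.S290

abbrev E (n : ℕ) := EuclideanSpace ℝ (Fin n)

/-- `i`-th basis vector -/
noncomputable def ei {n : ℕ} (i : Fin n) : E n := EuclideanSpace.single i (1 : ℝ)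

/-- `i`-th partial derivative -/
noncomputable def pd {n : ℕ} (i : Fin n) (f : E n → ℝ) (x : E n) : ℝ := fderiv ℝ f x (ei i)

/-- Hessian matrix `D²f`, entry `i j` is `∂_i ∂_j f` -/
noncomputable def hess {n : ℕ} (f : E n → ℝ) (x : E n) : Matrix (Fin n) (Fin n) ℝ :=
  fun i j => pd i (pd j f) x

/-- quadratic form of a matrix -/
noncomputable def qf {n : ℕ} (A : Matrix (Fin n) (Fin n) ℝ) (v : E n) : ℝ := ∑ i, ∑ j, A i j * v i * v j

/-- uniformly convex `C^{2,1}` potentials -/
structure PC {n : ℕ} (φ : E n → ℝ) (c C K : ℝ) : Prop where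
  c_pos : 0 < c
  C2 : ContDiff ℝ 2 φ
  lower : ∀ x v, c * ‖v‖ ^ 2 ≤ qf (hess φ x) v
  upper : ∀ x v, qf (hess φ x) v ≤ C * ‖v‖ ^ 2
  lip : ∀ i j x y, |hess φ x i j - hess φ y i j| ≤ K * ‖x - y‖

/-- `Ψ = (D²φ)⁻¹` -/
noncomputable def tau {n : ℕ} (φ : E n → ℝ) (x : E n) : Matrix (Fin n) (Fin n) ℝ := (hess φ x)⁻¹

/-- the gradient map -/
noncomputable def gr {n : ℕ} (φ : E n → ℝ) (x : E n) : E n := WithLp.toLp 2 fun i => pd i φ x

variable {n : ℕ} {φ : E n → ℝ} {c C K : ℝ}

lemma vec_eq_sum (v : E n) : v = ∑ i, v i • (ei i : E n) := by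
  ext j
  simp [ei, Finset.sum_apply, Pi.single_apply]

/-- decomposition of a linear functional -/
lemma clm_eq_sum (l : E n →L[ℝ] ℝ) :
    l = ∑ i, l (ei i) • (EuclideanSpace.proj i : E n →L[ℝ] ℝ) := by
  ext v
  conv_lhs => rw [vec_eq_sum v]
  simp [map_sum, mul_comm]

lemma norm_ei (i : Fin n) : ‖(ei i : E n)‖ = 1 := by simp [ei]

lemma pd_add {f g : E n → ℝ} {x : E n} (hf : DifferentiableAt ℝ f x) (hg : DifferentiableAt ℝ g x)
    (i : Fin n) : pd i (fun z => f z + g z) x = pd i f x + pd i g x := by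
  unfold pd; rw [fderiv_fun_add hf hg]; rfl

lemma pd_sub {f g : E n → ℝ} {x : E n} (hf : DifferentiableAt ℝ f x) (hg : DifferentiableAt ℝ g x)
    (i : Fin n) : pd i (fun z => f z - g z) x = pd i f x - pd i g x := by
  unfold pd; rw [fderiv_fun_sub hf hg]; rfl

lemma pd_mul {f g : E n → ℝ} {x : E n} (hf : DifferentiableAt ℝ f x) (hg : DifferentiableAt ℝ g x)
    (i : Fin n) : pd i (fun z => f z * g z) x = pd i f x * g x + f x * pd i g x := by
  unfold pd; rw [fderiv_fun_mul hf hg]; simp; ring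

lemma pd_sum {ι : Type*} (s : Finset ι) {f : ι → E n → ℝ} {x : E n}
    (hf : ∀ k ∈ s, DifferentiableAt ℝ (f k) x) (i : Fin n) :
    pd i (fun z => ∑ k ∈ s, f k z) x = ∑ k ∈ s, pd i (f k) x := by
  unfold pd; rw [fderiv_fun_sum hf]; simp

lemma pd_const (a : ℝ) (i : Fin n) (x : E n) : pd i (fun _ : E n => a) x = 0 := by
  unfold pd; simp

lemma hess_symm (h : ContDiff ℝ 2 φ) (x : E n) (i j : Fin n) : hess φ x i j = hess φ x j i := by
  have h1 : Differentiable ℝ (fderiv ℝ φ) :=
    (h.fderiv_right (m := 1) (by norm_num)).differentiable (by norm_num)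
  have key : ∀ i j : Fin n, hess φ x i j = fderiv ℝ (fderiv ℝ φ) x (ei i) (ei j) := by
    intro i j
    unfold hess pd
    have := fderiv_clm_apply (𝕜 := ℝ) (c := fun y => fderiv ℝ φ y) (u := fun _ => (ei j : E n))
      (x := x) h1.differentiableAt (differentiableAt_const _)
    rw [this]; simp
  rw [key, key]
  have := (h.contDiffAt (x := x)).isSymmSndFDerivAt (by simp)
  exact this _ _

/-- `A v · v` -/
lemma qf_eq (A : Matrix (Fin n) (Fin n) ℝ) (v : E n) :
    qf A v = ∑ i, v i * (A.mulVec (fun j => v j)) i := by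
  unfold qf Matrix.mulVec dotProduct
  refine Finset.sum_congr rfl fun i _ => ?_
  rw [Finset.mul_sum]
  exact Finset.sum_congr rfl fun j _ => by ring

lemma hess_inj (h : PC φ c C K) (x : E n) (w : Fin n → ℝ) (hw : (hess φ x).mulVec w = 0) :
    w = 0 := by
  have h1 := h.lower x (WithLp.toLp 2 w)
  rw [qf_eq] at h1
  have h2 : (∑ i, (WithLp.toLp 2 w : E n) i *
      ((hess φ x).mulVec (fun j => (WithLp.toLp 2 w : E n) j)) i) = 0 := by
    have : (fun j => (WithLp.toLp 2 w : E n) j) = w := rfl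
    rw [this, hw]; simp
  rw [h2] at h1
  have h3 : ‖(WithLp.toLp 2 w : E n)‖ = 0 := by
    have := h.c_pos
    have h4 : ‖(WithLp.toLp 2 w : E n)‖ ^ 2 ≤ 0 := by
      by_contra hcon
      push Not at hcon
      nlinarith
    nlinarith [norm_nonneg (WithLp.toLp 2 w : E n), sq_nonneg ‖(WithLp.toLp 2 w : E n)‖,
      pow_eq_zero_iff (two_ne_zero) |>.mp (le_antisymm h4 (sq_nonneg _))]
  have h5 := norm_eq_zero.mp h3
  have : w = fun j => (WithLp.toLp 2 w : E n) j := rfl
  rw [this, h5]; rfl

lemma hess_det_isUnit (h : PC φ c C K) (x : E n) : IsUnit (hess φ x).det := by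
  rw [isUnit_iff_ne_zero]
  intro h0
  obtain ⟨w, hw, hw0⟩ := Matrix.exists_mulVec_eq_zero_iff.mpr h0
  exact hw (hess_inj h x w hw0)

lemma hess_mul_tau (h : PC φ c C K) (x : E n) : hess φ x * tau φ x = 1 :=
  Matrix.mul_nonsing_inv _ (hess_det_isUnit h x)

lemma tau_mul_hess (h : PC φ c C K) (x : E n) : tau φ x * hess φ x = 1 :=
  Matrix.nonsing_inv_mul _ (hess_det_isUnit h x)

lemma hess_transpose (h : PC φ c C K) (x : E n) : (hess φ x).transpose = hess φ x := by
  ext i j
  exact hess_symm h.C2 x j i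

lemma tau_transpose (h : PC φ c C K) (x : E n) : (tau φ x).transpose = tau φ x := by
  unfold tau
  rw [Matrix.transpose_nonsing_inv, hess_transpose h x]

lemma tau_symm (h : PC φ c C K) (x : E n) (i j : Fin n) : tau φ x i j = tau φ x j i := by
  have := congrFun (congrFun (tau_transpose h x) j) i
  simpa [Matrix.transpose_apply] using this

lemma hess_tau_apply (h : PC φ c C K) (x : E n) (i k : Fin n) :
    ∑ j, hess φ x i j * tau φ x j k = if i = k then 1 else 0 := by
  have := congrFun (congrFun (hess_mul_tau h x) i) k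
  simpa [Matrix.mul_apply, Matrix.one_apply] using this

lemma tau_hess_apply (h : PC φ c C K) (x : E n) (i k : Fin n) :
    ∑ j, tau φ x i j * hess φ x j k = if i = k then 1 else 0 := by
  have := congrFun (congrFun (tau_mul_hess h x) i) k
  simpa [Matrix.mul_apply, Matrix.one_apply] using this

lemma tau_bound (h : PC φ c C K) (x : E n) (i j : Fin n) : |tau φ x i j| ≤ 1 / c := by
  set w : E n := WithLp.toLp 2 (fun k => tau φ x k j) with hw
  have h1 := h.lower x w
  have h2 : qf (hess φ x) w = w j := by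
    rw [qf_eq]
    have : ∀ k, ((hess φ x).mulVec (fun l => w l)) k = if k = j then 1 else 0 := by
      intro k
      have := hess_tau_apply h x k j
      simpa [Matrix.mulVec, dotProduct, hw] using this
    simp [this]
  rw [h2] at h1
  have h3 : ∀ k, |w k| ≤ ‖w‖ := fun k => by
    have := PiLp.norm_apply_le w k
    simpa using this
  have h4 : w j ≤ ‖w‖ := le_trans (le_abs_self _) (h3 j)
  have h5 : ‖w‖ ≤ 1 / c := by
    rw [le_div_iff₀ h.c_pos]
    by_contra hcon
    push Not at hcon
    have hpos : 0 < ‖w‖ := by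
      by_contra h0
      have : ‖w‖ = 0 := le_antisymm (not_lt.mp h0) (norm_nonneg _)
      rw [this] at hcon; simp at hcon; linarith
    nlinarith
  have h6 : tau φ x i j = w i := rfl
  rw [h6]
  exact (h3 i).trans h5

lemma tau_sub (h : PC φ c C K) (x y : E n) :
    tau φ x - tau φ y = tau φ x * (hess φ y - hess φ x) * tau φ y := by
  rw [mul_sub, sub_mul, mul_assoc, hess_mul_tau h y, tau_mul_hess h x]
  simp

lemma tau_lip (h : PC φ c C K) : ∃ K : ℝ≥0, ∀ i j, LipschitzWith K (fun x => tau φ x i j) := by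
  have hc := h.c_pos
  refine ⟨(∑ _p : Fin n, ∑ _q : Fin n, (1 / c) * (1 / c) * |K|).toNNReal, fun i j => ?_⟩
  refine LipschitzWith.of_dist_le_mul fun x y => ?_
  rw [Real.coe_toNNReal _ (by positivity), Real.dist_eq, dist_eq_norm]
  have h1 := congrFun (congrFun (tau_sub h x y) i) j
  have h2 : tau φ x i j - tau φ y i j =
      ∑ q, ∑ p, tau φ x i p * (hess φ y p q - hess φ x p q) * tau φ y q j := by
    rw [Matrix.sub_apply] at h1
    rw [h1, Matrix.mul_apply]
    refine Finset.sum_congr rfl fun q _ => ?_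
    rw [Matrix.mul_apply, Finset.sum_mul]
    rfl
  rw [h2, Finset.sum_mul]
  refine (Finset.abs_sum_le_sum_abs _ _).trans (Finset.sum_le_sum fun q _ => ?_)
  rw [Finset.sum_mul]
  refine (Finset.abs_sum_le_sum_abs _ _).trans (Finset.sum_le_sum fun p _ => ?_)
  rw [abs_mul, abs_mul]
  have h3 : |hess φ y p q - hess φ x p q| ≤ |K| * ‖x - y‖ := by
    refine (h.lip p q y x).trans ?_
    rw [norm_sub_rev]
    exact mul_le_mul_of_nonneg_right (le_abs_self _) (norm_nonneg _)
  calc |tau φ x i p| * |hess φ y p q - hess φ x p q| * |tau φ y q j|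
      ≤ (1 / c) * (|K| * ‖x - y‖) * (1 / c) := by
        refine mul_le_mul (mul_le_mul (tau_bound h x i p) h3 (abs_nonneg _) (by positivity))
          (tau_bound h y q j) (abs_nonneg _) (by positivity)
    _ = (1 / c) * (1 / c) * |K| * ‖x - y‖ := by ring

lemma hess_lip (h : PC φ c C K) (i j : Fin n) :
    LipschitzWith K.toNNReal (fun x => hess φ x i j) := by
  refine LipschitzWith.of_dist_le_mul fun x y => ?_
  rw [Real.dist_eq, dist_eq_norm]
  exact (h.lip i j x y).trans (mul_le_mul_of_nonneg_right (Real.le_coe_toNNReal _) (norm_nonneg _))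

/-- the good points: all entries of `D²φ` and of `τ` are differentiable -/
def Good (φ : E n → ℝ) (x : E n) : Prop :=
  (∀ i j, DifferentiableAt ℝ (fun z => hess φ z i j) x) ∧
    ∀ i j, DifferentiableAt ℝ (fun z => tau φ z i j) x

lemma ae_good (h : PC φ c C K) : ∀ᵐ x : E n, Good φ x := by
  obtain ⟨K, hK⟩ := tau_lip h
  have h1 : ∀ᵐ x : E n, ∀ i j, DifferentiableAt ℝ (fun z => hess φ z i j) x := by
    rw [ae_all_iff]; intro i; rw [ae_all_iff]; intro j
    exact (hess_lip h i j).ae_differentiableAt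
  have h2 : ∀ᵐ x : E n, ∀ i j, DifferentiableAt ℝ (fun z => tau φ z i j) x := by
    rw [ae_all_iff]; intro i; rw [ae_all_iff]; intro j
    exact (hK i j).ae_differentiableAt
  filter_upwards [h1, h2] with x a b using ⟨a, b⟩

/-- third derivatives -/
noncomputable def T3 (φ : E n → ℝ) (x : E n) (a i j : Fin n) : ℝ := pd a (fun z => hess φ z i j) x

lemma T3_symm12 (h : PC φ c C K) {x : E n} (hx : Good φ x) (a i j : Fin n) :
    T3 φ x a i j = T3 φ x i a j := by
  have hd : ∀ y, HasFDerivAt (pd j φ) (fderiv ℝ (pd j φ) y) y := by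
    intro y
    have h1 : Differentiable ℝ (fderiv ℝ φ) :=
      (h.C2.fderiv_right (m := 1) (by norm_num)).differentiable (by norm_num)
    have h2 : DifferentiableAt ℝ (pd j φ) y := by
      unfold pd
      exact (h1.differentiableAt).clm_apply (differentiableAt_const _)
    exact h2.hasFDerivAt
  have hf : fderiv ℝ (pd j φ) = fun y => ∑ k, hess φ y k j • (EuclideanSpace.proj k : E n →L[ℝ] ℝ) := by
    funext y
    exact clm_eq_sum _
  have hf' : HasFDerivAt (fderiv ℝ (pd j φ))
      (∑ k, (fderiv ℝ (fun z => hess φ z k j) x).smulRight (EuclideanSpace.proj k : E n →L[ℝ] ℝ)) x := by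
    rw [hf]
    refine HasFDerivAt.fun_sum fun k _ => ?_
    exact ((hx.1 k j).hasFDerivAt).smul_const (EuclideanSpace.proj k : E n →L[ℝ] ℝ)
  have key := second_derivative_symmetric_of_eventually (Eventually.of_forall hd) hf' (ei a) (ei i)
  have h3 : ∀ a i : Fin n, (∑ k, (fderiv ℝ (fun z => hess φ z k j) x).smulRight
      (EuclideanSpace.proj k : E n →L[ℝ] ℝ)) (ei a) (ei i) = T3 φ x a i j := by
    intro a i
    simp [T3, pd, ei]
  rw [h3, h3] at key
  exact key

lemma T3_symm23 (h : PC φ c C K) (x : E n) (a i j : Fin n) :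
    T3 φ x a i j = T3 φ x a j i := by
  unfold T3
  have : (fun z => hess φ z i j) = fun z => hess φ z j i := by
    funext z; exact hess_symm h.C2 z i j
  rw [this]

/-- derivative of `τ` -/
lemma pd_tau (h : PC φ c C K) {x : E n} (hx : Good φ x) (a i j : Fin n) :
    pd a (fun z => tau φ z i j) x = - ∑ p, ∑ q, tau φ x i p * T3 φ x a p q * tau φ x q j := by
  have h1 : ∀ p, ∑ q, (T3 φ x a p q * tau φ x q j + hess φ x p q * pd a (fun z => tau φ z q j) x)
      = 0 := by
    intro p
    have h2 : (fun z => ∑ q, hess φ z p q * tau φ z q j) = fun _ => if p = j then (1 : ℝ) else 0 := by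
      funext z; exact hess_tau_apply h z p j
    have h3 : pd a (fun z => ∑ q, hess φ z p q * tau φ z q j) x = 0 := by
      rw [h2]; exact pd_const _ _ _
    rw [pd_sum Finset.univ (fun q _ => (hx.1 p q).fun_mul (hx.2 q j))] at h3
    rw [← h3]
    refine Finset.sum_congr rfl fun q _ => ?_
    rw [pd_mul (hx.1 p q) (hx.2 q j)]
    rfl
  have h4 : ∑ p, tau φ x i p * ∑ q, (T3 φ x a p q * tau φ x q j +
      hess φ x p q * pd a (fun z => tau φ z q j) x) = 0 := by
    simp [h1]
  have h5 : ∑ p, tau φ x i p * ∑ q, hess φ x p q * pd a (fun z => tau φ z q j) x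
      = pd a (fun z => tau φ z i j) x := by
    simp only [Finset.mul_sum]
    rw [Finset.sum_comm]
    have : ∀ q, ∑ p, tau φ x i p * (hess φ x p q * pd a (fun z => tau φ z q j) x)
        = (if i = q then 1 else 0) * pd a (fun z => tau φ z q j) x := by
      intro q
      rw [← tau_hess_apply h x i q, Finset.sum_mul]
      exact Finset.sum_congr rfl fun p _ => by ring
    simp [this]
  simp only [Finset.sum_add_distrib, mul_add] at h4
  rw [h5] at h4
  have h6 : ∑ p, tau φ x i p * ∑ q, T3 φ x a p q * tau φ x q j =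
      ∑ p, ∑ q, tau φ x i p * T3 φ x a p q * tau φ x q j := by
    refine Finset.sum_congr rfl fun p _ => ?_
    rw [Finset.mul_sum]
    exact Finset.sum_congr rfl fun q _ => by ring
  rw [h6] at h4
  linarith

/-- Jacobi's formula for a matrix of differentiable functions -/
lemma pd_det {A : E n → Matrix (Fin n) (Fin n) ℝ} {x : E n}
    (hA : ∀ i j, DifferentiableAt ℝ (fun z => A z i j) x) (a : Fin n) :
    DifferentiableAt ℝ (fun z => (A z).det) x ∧
    pd a (fun z => (A z).det) x =
      ∑ i, ∑ k, (A x).adjugate i k * pd a (fun z => A z k i) x := by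
  have h1 : (fun z => (A z).det) = fun z => ∑ σ : Equiv.Perm (Fin n),
      (Equiv.Perm.sign σ : ℝ) * ∏ i, A z (σ i) i := by
    funext z
    rw [Matrix.det_apply']
  have h2 : ∀ σ : Equiv.Perm (Fin n), HasFDerivAt (fun z => ∏ i, A z (σ i) i)
      (∑ i, (∏ j ∈ Finset.univ.erase i, A x (σ j) j) • fderiv ℝ (fun z => A z (σ i) i) x) x := by
    intro σ
    exact HasFDerivAt.finsetProd fun i _ => (hA (σ i) i).hasFDerivAt
  have h3 : HasFDerivAt (fun z => (A z).det) (∑ σ : Equiv.Perm (Fin n),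
      (Equiv.Perm.sign σ : ℝ) •
      (∑ i, (∏ j ∈ Finset.univ.erase i, A x (σ j) j) • fderiv ℝ (fun z => A z (σ i) i) x)) x := by
    rw [h1]
    refine HasFDerivAt.fun_sum fun σ _ => ?_
    exact (h2 σ).const_mul _
  refine ⟨h3.differentiableAt, ?_⟩
  unfold pd
  rw [h3.fderiv]
  have h4 : ∀ i, ∑ k, (A x).adjugate i k * fderiv ℝ (fun z => A z k i) x (ei a) =
      ∑ σ : Equiv.Perm (Fin n), (Equiv.Perm.sign σ : ℝ) *
        ((∏ j ∈ Finset.univ.erase i, A x (σ j) j) * fderiv ℝ (fun z => A z (σ i) i) x (ei a)) := by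
    intro i
    have h5 := congrFun (Matrix.cramer_eq_adjugate_mulVec (A x)
      (fun k => fderiv ℝ (fun z => A z k i) x (ei a))) i
    rw [Matrix.cramer_apply] at h5
    have h6 : ((A x).adjugate.mulVec (fun k => fderiv ℝ (fun z => A z k i) x (ei a))) i =
        ∑ k, (A x).adjugate i k * fderiv ℝ (fun z => A z k i) x (ei a) := rfl
    rw [← h6, ← h5, Matrix.det_apply']
    refine Finset.sum_congr rfl fun σ _ => ?_
    congr 1
    rw [← Finset.mul_prod_erase Finset.univ _ (Finset.mem_univ i), mul_comm]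
    congr 1
    · refine Finset.prod_congr rfl fun j hj => ?_
      rw [Matrix.updateCol_apply, if_neg (Finset.ne_of_mem_erase hj)]
    · rw [Matrix.updateCol_apply, if_pos rfl]
  simp only [sum_apply, smul_apply, smul_eq_mul, Finset.mul_sum]
  rw [Finset.sum_comm]
  refine Finset.sum_congr rfl fun i _ => ?_
  rw [h4]

lemma contDiff_pd {f : E n → ℝ} {m : ℕ} (hf : ContDiff ℝ (m + 1 : ℕ) f) (i : Fin n) :
    ContDiff ℝ m (pd i f) := by
  unfold pd
  exact (hf.fderiv_right (m := m) (by norm_cast)).clm_apply contDiff_const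

lemma diff_pd (h : PC φ c C K) (i : Fin n) (x : E n) : DifferentiableAt ℝ (pd i φ) x := by
  have h1 : Differentiable ℝ (fderiv ℝ φ) :=
    (h.C2.fderiv_right (m := 1) (by norm_num)).differentiable (by norm_num)
  unfold pd
  exact (h1.differentiableAt).clm_apply (differentiableAt_const _)

/-- `L_j = ∂_j log det D²φ` -/
noncomputable def Ld (φ : E n → ℝ) (x : E n) (j : Fin n) : ℝ :=
  ∑ a, ∑ b, tau φ x a b * T3 φ x j a b

lemma pd_log_det (h : PC φ c C K) {x : E n} (hx : Good φ x) (j : Fin n) :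
    DifferentiableAt ℝ (fun z => Real.log (hess φ z).det) x ∧
    pd j (fun z => Real.log (hess φ z).det) x = Ld φ x j := by
  have hdet := pd_det (A := hess φ) hx.1 j
  have hne : (hess φ x).det ≠ 0 := (hess_det_isUnit h x).ne_zero
  have hlog : DifferentiableAt ℝ (fun z => Real.log (hess φ z).det) x := hdet.1.log hne
  refine ⟨hlog, ?_⟩
  have h4 : pd j (fun z => Real.log (hess φ z).det) x =
      ((hess φ x).det)⁻¹ * pd j (fun z => (hess φ z).det) x := by
    unfold pd
    rw [fderiv.log hdet.1 hne]; rfl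
  rw [h4, hdet.2, Finset.mul_sum, Ld]
  refine Finset.sum_congr rfl fun i _ => ?_
  rw [Finset.mul_sum]
  refine Finset.sum_congr rfl fun k _ => ?_
  have h5 : tau φ x i k = ((hess φ x).det)⁻¹ * (hess φ x).adjugate i k := by
    unfold tau
    rw [Matrix.inv_def, Ring.inverse_eq_inv']; rfl
  rw [h5, T3_symm23 h x j i k, T3]; ring

/-! ### bounded Lipschitz functions -/

/-- bounded and Lipschitz -/
def BL (f : E n → ℝ) : Prop := ∃ (K : ℝ≥0) (B : ℝ), LipschitzWith K f ∧ ∀ x, |f x| ≤ B

/-- bounded, Lipschitz, compactly supported -/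
def BLC (f : E n → ℝ) : Prop := BL f ∧ HasCompactSupport f

lemma BL.mul {f g : E n → ℝ} (hf : BL f) (hg : BL g) : BL (fun x => f x * g x) := by
  obtain ⟨K, B, hK, hB⟩ := hf
  obtain ⟨K', B', hK', hB'⟩ := hg
  have hB0 : 0 ≤ B := (abs_nonneg _).trans (hB 0)
  have hB0' : 0 ≤ B' := (abs_nonneg _).trans (hB' 0)
  refine ⟨(B * K' + B' * K).toNNReal, B * B', ?_, fun x => ?_⟩
  · refine LipschitzWith.of_dist_le_mul fun x y => ?_
    rw [Real.coe_toNNReal _ (by positivity), Real.dist_eq]
    have e : f x * g x - f y * g y = f x * (g x - g y) + (f x - f y) * g y := by ring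
    have h1 : |g x - g y| ≤ K' * dist x y := by rw [← Real.dist_eq]; exact hK'.dist_le_mul x y
    have h2 : |f x - f y| ≤ K * dist x y := by rw [← Real.dist_eq]; exact hK.dist_le_mul x y
    rw [e]
    refine (abs_add_le _ _).trans ?_
    rw [abs_mul, abs_mul]
    have h3 := mul_le_mul (hB x) h1 (abs_nonneg _) hB0
    have h4 := mul_le_mul h2 (hB' y) (abs_nonneg _) (by positivity)
    calc |f x| * |g x - g y| + |f x - f y| * |g y|
        ≤ B * (K' * dist x y) + K * dist x y * B' := add_le_add h3 h4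
      _ = _ := by ring
  · rw [abs_mul]
    exact mul_le_mul (hB x) (hB' x) (abs_nonneg _) hB0

lemma BL.add {f g : E n → ℝ} (hf : BL f) (hg : BL g) : BL (fun x => f x + g x) := by
  obtain ⟨K, B, hK, hB⟩ := hf
  obtain ⟨K', B', hK', hB'⟩ := hg
  exact ⟨K + K', B + B', hK.add hK', fun x => (abs_add_le _ _).trans (add_le_add (hB x) (hB' x))⟩

lemma BL.neg {f : E n → ℝ} (hf : BL f) : BL (fun x => - f x) := by
  obtain ⟨K, B, hK, hB⟩ := hf
  exact ⟨K, B, hK.neg, fun x => by rw [abs_neg]; exact hB x⟩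

lemma BL.sub {f g : E n → ℝ} (hf : BL f) (hg : BL g) : BL (fun x => f x - g x) := by
  simpa [sub_eq_add_neg] using hf.add hg.neg

lemma BL.const (a : ℝ) : BL (fun _ : E n => a) :=
  ⟨0, |a|, LipschitzWith.const a, fun _ => le_rfl⟩

lemma BL.sum {ι : Type*} (s : Finset ι) {f : ι → E n → ℝ} (hf : ∀ i ∈ s, BL (f i)) :
    BL (fun x => ∑ i ∈ s, f i x) := by
  classical
  induction s using Finset.induction_on with
  | empty => simpa using BL.const (0 : ℝ)
  | insert a s ha ih =>
    have h1 := (hf a (Finset.mem_insert_self a s)).add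
      (ih fun i hi => hf i (Finset.mem_insert_of_mem hi))
    simpa [Finset.sum_insert ha] using h1

lemma BL.continuous {f : E n → ℝ} (hf : BL f) : Continuous f := by
  obtain ⟨K, B, hK, _⟩ := hf; exact hK.continuous

lemma BL.ae_diff {f : E n → ℝ} (hf : BL f) : ∀ᵐ x, DifferentiableAt ℝ f x := by
  obtain ⟨K, B, hK, _⟩ := hf; exact hK.ae_differentiableAt

lemma BLC.mul_right {f g : E n → ℝ} (hf : BLC f) (hg : BL g) : BLC (fun x => f x * g x) :=
  ⟨hf.1.mul hg, hf.2.mul_right⟩

lemma BLC.mul_left {f g : E n → ℝ} (hf : BL f) (hg : BLC g) : BLC (fun x => f x * g x) :=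
  ⟨hf.mul hg.1, hg.2.mul_left⟩

lemma BLC.add {f g : E n → ℝ} (hf : BLC f) (hg : BLC g) : BLC (fun x => f x + g x) :=
  ⟨hf.1.add hg.1, hf.2.add hg.2⟩

lemma BLC.neg {f : E n → ℝ} (hf : BLC f) : BLC (fun x => - f x) :=
  ⟨hf.1.neg, hf.2.neg⟩

lemma BLC.sub {f g : E n → ℝ} (hf : BLC f) (hg : BLC g) : BLC (fun x => f x - g x) := by
  simpa [sub_eq_add_neg] using hf.add hg.neg

lemma BLC.zero : BLC (fun _ : E n => (0 : ℝ)) := ⟨BL.const 0, HasCompactSupport.zero⟩

lemma BLC.sum {ι : Type*} (s : Finset ι) {f : ι → E n → ℝ} (hf : ∀ i ∈ s, BLC (f i)) :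
    BLC (fun x => ∑ i ∈ s, f i x) := by
  classical
  induction s using Finset.induction_on with
  | empty => simpa using BLC.zero
  | insert a s ha ih =>
    have h1 := (hf a (Finset.mem_insert_self a s)).add
      (ih fun i hi => hf i (Finset.mem_insert_of_mem hi))
    simpa [Finset.sum_insert ha] using h1

lemma BLC.integrable {f : E n → ℝ} (hf : BLC f) : Integrable f :=
  hf.1.continuous.integrable_of_hasCompactSupport hf.2

lemma blc_of_C1 {f : E n → ℝ} (hf : ContDiff ℝ 1 f) (hs : HasCompactSupport f) : BLC f := by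
  obtain ⟨K, hK⟩ := ContDiff.lipschitzWith_of_hasCompactSupport hs hf (by simp)
  obtain ⟨B, hB⟩ := hs.exists_bound_of_continuous hf.continuous
  exact ⟨⟨K, B, hK, fun x => by simpa using hB x⟩, hs⟩

/-- a compactly supported Lipschitz function times a `C¹` function -/
lemma BLC.mul_C1 {f w : E n → ℝ} (hf : BLC f) (hw : ContDiff ℝ 1 w) :
    BLC (fun x => f x * w x) := by
  obtain ⟨R, hR⟩ := hf.2.isCompact.isBounded.subset_closedBall (0 : E n)
  have hR' : tsupport f ⊆ Metric.closedBall (0 : E n) (max R 1) :=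
    hR.trans (Metric.closedBall_subset_closedBall (le_max_left _ _))
  let χ : ContDiffBump (0 : E n) := ⟨max R 1, max R 1 + 1, lt_of_lt_of_le one_pos (le_max_right _ _),
    lt_add_one _⟩
  have h1 : (fun x => f x * w x) = fun x => f x * (χ x * w x) := by
    funext x
    by_cases hx : f x = 0
    · simp [hx]
    · have : x ∈ Metric.closedBall (0 : E n) (max R 1) := hR' (subset_tsupport _ hx)
      rw [χ.one_of_mem_closedBall this, one_mul]
  rw [h1]
  have h2 : BLC (fun x => χ x * w x) :=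
    blc_of_C1 ((χ.contDiff (n := 1)).mul hw) χ.hasCompactSupport.mul_right
  exact hf.mul_right h2.1

lemma measurable_pd (b : Fin n) (f : E n → ℝ) : Measurable (pd b f) := by
  unfold pd
  exact measurable_fderiv_apply_const ℝ f (ei b)

/-- integration by parts: `∫ ∂_b u f = - ∫ u ∂_b f`, `u` Lipschitz, `f` Lipschitz compactly supported -/
lemma ibp {u f : E n → ℝ} {D : ℝ≥0} (hu : LipschitzWith D u) (hf : BLC f) (b : Fin n) :
    ∫ x, pd b u x * f x = - ∫ x, pd b f x * u x := by
  obtain ⟨⟨K, B, hK, hB⟩, hc⟩ := hf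
  have h1 := LipschitzWith.integral_lineDeriv_mul_eq (μ := (volume : Measure (E n))) hu hK hc (ei b)
  have h2 : ∫ x, lineDeriv ℝ u x (ei b) * f x = ∫ x, pd b u x * f x := by
    refine integral_congr_ae ?_
    filter_upwards [hu.ae_differentiableAt] with x hx
    rw [hx.lineDeriv_eq_fderiv]; simp [pd]
  have h3 : ∫ x, lineDeriv ℝ f x (-(ei b)) * u x = ∫ x, - (pd b f x * u x) := by
    refine integral_congr_ae ?_
    filter_upwards [hK.ae_differentiableAt] with x hx
    rw [hx.lineDeriv_eq_fderiv]; simp [pd]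
  rw [h2, h3, integral_neg] at h1
  exact h1

/-- the integral of a derivative of a compactly supported Lipschitz function vanishes -/
lemma integral_pd {f : E n → ℝ} (hf : BLC f) (b : Fin n) : ∫ x, pd b f x = 0 := by
  have h := ibp (LipschitzWith.const (1 : ℝ)) hf b
  simp only [pd_const, zero_mul, integral_zero, mul_one] at h
  linarith

/-- derivatives of Lipschitz functions are bounded -/
lemma pd_bound_of_lip {f : E n → ℝ} {D : ℝ≥0} (hf : LipschitzWith D f) (b : Fin n) (x : E n) :
    |pd b f x| ≤ D := by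
  have h1 := norm_fderiv_le_of_lipschitz ℝ hf (x₀ := x)
  have h2 := (fderiv ℝ f x).le_opNorm (ei b)
  rw [norm_ei, mul_one, Real.norm_eq_abs] at h2
  exact h2.trans h1

lemma BL.pd_bound {f : E n → ℝ} (hf : BL f) : ∃ K : ℝ, ∀ b x, |pd b f x| ≤ K := by
  obtain ⟨K, B, hK, _⟩ := hf
  exact ⟨K, fun b x => pd_bound_of_lip hK b x⟩

lemma pd_eq_zero_of_notMem {f : E n → ℝ} {x : E n} (hx : x ∉ tsupport f) (b : Fin n) :
    pd b f x = 0 := by
  have h1 : f =ᶠ[𝓝 x] fun _ => 0 := notMem_tsupport_iff_eventuallyEq.mp hx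
  unfold pd
  rw [h1.fderiv_eq]; simp

lemma BLC.integrable_pd {f : E n → ℝ} (hf : BLC f) (b : Fin n) : Integrable (pd b f) := by
  obtain ⟨K, hK⟩ := hf.1.pd_bound
  have hfin : volume (tsupport f) < ⊤ := hf.2.isCompact.measure_lt_top
  have h1 : IntegrableOn (pd b f) (tsupport f) := by
    refine Measure.integrableOn_of_bounded (M := K) hfin.ne
      (measurable_pd b f).aestronglyMeasurable ?_
    exact Eventually.of_forall fun x => by simpa using hK b x
  exact (integrableOn_iff_integrable_of_support_subset (fun x hx => by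
    by_contra hcon
    exact hx (pd_eq_zero_of_notMem hcon b))).mp h1

lemma tau_BL (h : PC φ c C K) (i j : Fin n) : BL (fun x => tau φ x i j) := by
  obtain ⟨K, hK⟩ := tau_lip h
  exact ⟨K, 1 / c, hK i j, fun x => tau_bound h x i j⟩

end Vale.Agent.P254.S290
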