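import Vale.Agent.P254.S290.Final

set_option linter.all false

/-!
# P254, S-ID: the integrated Monge-Ampere identity for a general weight field `P(z)`
(symmetric matrix field with bounded Lipschitz entries)
-/

open MeasureTheory Filter Topology
open scoped NNReal ContDiff MatrixOrder

namespace Vale.Agent.P254.S290

variable {n : ℕ} {φ U V : E n → ℝ} {c C K a : ℝ} {P : E n → Matrix (Fin n) (Fin n) ℝ}

/-- entrywise partial derivative of a matrix field -/
noncomputable def pdm (P : E n → Matrix (Fin n) (Fin n) ℝ) (b : Fin n) (z : E n) :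
    Matrix (Fin n) (Fin n) ℝ := fun i j => pd b (fun y => P y i j) z

/-- the two quadratic terms -/
noncomputable def LqF (P : E n → Matrix (Fin n) (Fin n) ℝ) (φ : E n → ℝ) (z : E n) : ℝ :=
  ∑ i, ∑ j, P z i j * ((hess φ z)⁻¹ * Dm φ i z * (hess φ z)⁻¹ * Dm φ j z).trace +
    ∑ a, ∑ b, (hess φ z)⁻¹ a b * (Dm φ a z * pdm P b z).trace

lemma sum_Xf_field (h : PC φ c C K) (hU : ContDiff ℝ 2 U) (hV : ContDiff ℝ 2 V)
    (hs : ∀ z i j, P z i j = P z j i) (z : E n) :
    ∑ i, ∑ j, Xf φ U V i j (fun z => P z i j) z =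
      (P z * hess V z).trace - LqF P φ z
        - (P z * (hess φ z * hess U (gr φ z) * hess φ z)).trace := by
  have hsV : ∀ i j, hess V z i j = hess V z j i := fun i j => hess_symm hV z i j
  have hsU : (hess U (gr φ z)).transpose = hess U (gr φ z) := by
    ext i j; exact hess_symm hU (gr φ z) j i
  have hsN : ∀ i j, (hess φ z * hess U (gr φ z) * hess φ z) i j = (hess φ z * hess U (gr φ z) * hess φ z) j i := by
    intro i j
    have : (hess φ z * hess U (gr φ z) * hess φ z).transpose = hess φ z * hess U (gr φ z) * hess φ z := by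
      rw [Matrix.transpose_mul, Matrix.transpose_mul, hess_transpose h z, hsU, mul_assoc]
    exact (congrFun (congrFun this j) i)
  rw [trace_mul_eq _ _ hsV, trace_mul_eq _ _ hsN]
  have e1 : ∀ i j, Xf φ U V i j (fun z => P z i j) z =
      P z i j * hess V z i j
        - P z i j * ((hess φ z)⁻¹ * Dm φ i z * (hess φ z)⁻¹ * Dm φ j z).trace
        - P z i j * (hess φ z * hess U (gr φ z) * hess φ z) i j
        - ∑ a, ∑ b, tau φ z a b * (pdm P a z i j * Dm φ b z i j) := by
    intro i j
    unfold Xf
    rw [Sf_eq h, ← MWM_eq]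
    have e2 : ∀ a b, tau φ z a b * pd a (fun z => P z i j) z * T3 φ z b i j =
        tau φ z a b * (pdm P a z i j * Dm φ b z i j) := by
      intro a b
      rw [mul_assoc]; rfl
    simp only [e2]
    ring
  simp only [e1, Finset.sum_sub_distrib]
  have e3 : ∑ i, ∑ j, ∑ a, ∑ b, tau φ z a b * (pdm P a z i j * Dm φ b z i j) =
      ∑ a, ∑ b, (hess φ z)⁻¹ a b * (Dm φ a z * pdm P b z).trace := by
    have s1 : ∀ i, ∑ j, ∑ a, ∑ b, tau φ z a b * (pdm P a z i j * Dm φ b z i j) =
        ∑ a, ∑ b, ∑ j, tau φ z a b * (pdm P a z i j * Dm φ b z i j) := by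
      intro i
      rw [Finset.sum_comm]
      exact Finset.sum_congr rfl fun a _ => Finset.sum_comm
    simp only [s1]
    rw [Finset.sum_comm]
    rw [Finset.sum_comm (s := (Finset.univ : Finset (Fin n))) (t := (Finset.univ : Finset (Fin n)))
      (f := fun a b => (hess φ z)⁻¹ a b * (Dm φ a z * pdm P b z).trace)]
    refine Finset.sum_congr rfl fun a _ => ?_
    rw [Finset.sum_comm]
    refine Finset.sum_congr rfl fun b _ => ?_
    have hsD : ∀ i j, pdm P a z i j = pdm P a z j i := by
      intro i j
      unfold pdm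
      congr 1
      funext y
      exact hs y i j
    rw [trace_mul_eq _ _ hsD, tau_symm h z a b, Finset.mul_sum]
    refine Finset.sum_congr rfl fun i _ => ?_
    rw [Finset.mul_sum]
    refine Finset.sum_congr rfl fun j _ => ?_
    unfold tau
    ring
  rw [e3]
  unfold LqF
  ring

/-- **S-ID, exact identity**: for a symmetric weight field `P` with bounded Lipschitz entries
`∫ e^{-V} (LqF P φ + tr (P M D²U(∇φ) M)) = ∫ e^{-V} tr (P D²V)`, and all three terms are integrable -/
theorem field_id (h : PC φ c C K) (hU : ContDiff ℝ 2 U) (hV : ContDiff ℝ 2 V) (hMA : MA φ U V a)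
    {BU BV : ℝ} (hBU : ∀ y i j, |hess U y i j| ≤ BU) (hBV : ∀ y i j, |hess V y i j| ≤ BV)
    (hI : Integrable fun z => Real.exp (-V z))
    (hP : ∀ i j, BL (fun z => P z i j)) (hs : ∀ z i j, P z i j = P z j i) :
    (Integrable fun z => Real.exp (-V z) * (P z * hess V z).trace) ∧
    (Integrable fun z => Real.exp (-V z) * (P z * (hess φ z * hess U (gr φ z) * hess φ z)).trace) ∧
    (Integrable fun z => Real.exp (-V z) * LqF P φ z) ∧
    (∫ z, Real.exp (-V z) * LqF P φ z) +
      ∫ z, Real.exp (-V z) * (P z * (hess φ z * hess U (gr φ z) * hess φ z)).trace =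
      ∫ z, Real.exp (-V z) * (P z * hess V z).trace := by
  have hX : ∀ i j, Integrable fun z => Real.exp (-V z) * Xf φ U V i j (fun z => P z i j) z := fun i j =>
    integrable_Xf h hV hBU hBV hI (hP i j) i j
  have hX0 : ∀ i j, ∫ z, Real.exp (-V z) * Xf φ U V i j (fun z => P z i j) z = 0 :=
    fun i j => ident_BL h hU hV hMA hBU hBV hI (hP i j) i j
  have hs0 : ∫ z, Real.exp (-V z) * ∑ i, ∑ j, Xf φ U V i j (fun z => P z i j) z = 0 := by
    simp only [Finset.mul_sum]
    rw [integral_finsetSum _ fun i _ => integrable_finsetSum _ fun j _ => hX i j]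
    refine Finset.sum_eq_zero fun i _ => ?_
    rw [integral_finsetSum _ fun j _ => hX i j]
    exact Finset.sum_eq_zero fun j _ => hX0 i j
  have hsI : Integrable fun z => Real.exp (-V z) * ∑ i, ∑ j, Xf φ U V i j (fun z => P z i j) z := by
    simp only [Finset.mul_sum]
    exact integrable_finsetSum _ fun i _ => integrable_finsetSum _ fun j _ => hX i j
  have hPb : ∀ i j, ∃ B : ℝ, ∀ z, |P z i j| ≤ B := fun i j => by
    obtain ⟨_, B, _, hB⟩ := hP i j
    exact ⟨B, hB⟩
  have hPm : ∀ i j, Measurable fun z => P z i j := fun i j => (hP i j).continuous.measurable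
  have hsV : ∀ z i j, hess V z i j = hess V z j i := fun z i j => hess_symm hV z i j
  have hI1 : Integrable fun z => Real.exp (-V z) * (P z * hess V z).trace := by
    have : ∀ z, Real.exp (-V z) * (P z * hess V z).trace =
        ∑ i, ∑ j, Real.exp (-V z) * (P z i j * hess V z i j) := by
      intro z
      rw [trace_mul_eq _ _ (hsV z)]
      simp only [Finset.mul_sum]
    simp only [this]
    refine integrable_finsetSum _ fun i _ => integrable_finsetSum _ fun j _ => ?_
    obtain ⟨B, hB⟩ := hPb i j
    refine hI.mul_bdd (c := B * BV) ((hPm i j).mul (measurable_hess V i j)).aestronglyMeasurable ?_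
    refine Eventually.of_forall fun z => ?_
    rw [Real.norm_eq_abs, abs_mul]
    exact mul_le_mul (hB z) (hBV z i j) (abs_nonneg _) ((abs_nonneg _).trans (hB z))
  have hNs : ∀ z i j, (hess φ z * hess U (gr φ z) * hess φ z) i j =
      (hess φ z * hess U (gr φ z) * hess φ z) j i := by
    intro z i j
    have hsU : (hess U (gr φ z)).transpose = hess U (gr φ z) := by
      ext i j; exact hess_symm hU (gr φ z) j i
    have : (hess φ z * hess U (gr φ z) * hess φ z).transpose = hess φ z * hess U (gr φ z) * hess φ z := by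
      rw [Matrix.transpose_mul, Matrix.transpose_mul, hess_transpose h z, hsU, mul_assoc]
    exact (congrFun (congrFun this j) i)
  have hI2 : Integrable fun z => Real.exp (-V z) *
      (P z * (hess φ z * hess U (gr φ z) * hess φ z)).trace := by
    have : ∀ z, Real.exp (-V z) * (P z * (hess φ z * hess U (gr φ z) * hess φ z)).trace =
        ∑ i, ∑ j, Real.exp (-V z) * (P z i j * MWM φ U z i j) := by
      intro z
      rw [trace_mul_eq _ _ (hNs z)]
      simp only [Finset.mul_sum, MWM_eq]
    simp only [this]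
    refine integrable_finsetSum _ fun i _ => integrable_finsetSum _ fun j _ => ?_
    obtain ⟨B, hB⟩ := hPb i j
    refine hI.mul_bdd (c := B * ((n : ℝ) ^ 2 * (2 * |C| * BU * (2 * |C|))))
      ((hPm i j).mul (measurable_MWM h i j)).aestronglyMeasurable ?_
    refine Eventually.of_forall fun z => ?_
    rw [Real.norm_eq_abs, abs_mul]
    exact mul_le_mul (hB z) (MWM_abs_le h hBU z i j) (abs_nonneg _) ((abs_nonneg _).trans (hB z))
  have hpt : ∀ z, Real.exp (-V z) * LqF P φ z =
      Real.exp (-V z) * (P z * hess V z).trace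
      - Real.exp (-V z) * (P z * (hess φ z * hess U (gr φ z) * hess φ z)).trace
      - Real.exp (-V z) * ∑ i, ∑ j, Xf φ U V i j (fun z => P z i j) z := by
    intro z
    rw [sum_Xf_field h hU hV hs z]; ring
  have hI12 : Integrable fun z => Real.exp (-V z) * (P z * hess V z).trace
      - Real.exp (-V z) * (P z * (hess φ z * hess U (gr φ z) * hess φ z)).trace := hI1.sub hI2
  have hI3 : Integrable fun z => Real.exp (-V z) * LqF P φ z := by
    simp only [hpt]
    exact hI12.sub hsI
  refine ⟨hI1, hI2, hI3, ?_⟩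
  have e1 : ∫ z, (Real.exp (-V z) * (P z * hess V z).trace
      - Real.exp (-V z) * (P z * (hess φ z * hess U (gr φ z) * hess φ z)).trace
      - Real.exp (-V z) * ∑ i, ∑ j, Xf φ U V i j (fun z => P z i j) z) =
      (∫ z, (Real.exp (-V z) * (P z * hess V z).trace
      - Real.exp (-V z) * (P z * (hess φ z * hess U (gr φ z) * hess φ z)).trace))
      - ∫ z, Real.exp (-V z) * ∑ i, ∑ j, Xf φ U V i j (fun z => P z i j) z :=
    integral_sub hI12 hsI
  have e2 : ∫ z, (Real.exp (-V z) * (P z * hess V z).trace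
      - Real.exp (-V z) * (P z * (hess φ z * hess U (gr φ z) * hess φ z)).trace) =
      (∫ z, Real.exp (-V z) * (P z * hess V z).trace)
      - ∫ z, Real.exp (-V z) * (P z * (hess φ z * hess U (gr φ z) * hess φ z)).trace :=
    integral_sub hI1 hI2
  have e0 : ∫ z, Real.exp (-V z) * LqF P φ z = ∫ z, (Real.exp (-V z) * (P z * hess V z).trace
      - Real.exp (-V z) * (P z * (hess φ z * hess U (gr φ z) * hess φ z)).trace
      - Real.exp (-V z) * ∑ i, ∑ j, Xf φ U V i j (fun z => P z i j) z) :=
    integral_congr_ae (Eventually.of_forall hpt)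
  rw [e0, e1, e2, hs0, sub_zero, sub_add_cancel]

/-- **S-ID for a positive semidefinite weight field** -/
theorem field_le (h : PC φ c C K) (hU : ContDiff ℝ 2 U) (hV : ContDiff ℝ 2 V) (hMA : MA φ U V a)
    {BU BV : ℝ} (hBU : ∀ y i j, |hess U y i j| ≤ BU) (hBV : ∀ y i j, |hess V y i j| ≤ BV)
    (hI : Integrable fun z => Real.exp (-V z)) (hcv : ∀ y v, 0 ≤ qf (hess U y) v)
    (hP : ∀ i j, BL (fun z => P z i j)) (hPp : ∀ z, (P z).PosSemidef) :
    ∫ z, Real.exp (-V z) * LqF P φ z ≤ ∫ z, Real.exp (-V z) * (P z * hess V z).trace := by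
  have hs : ∀ z i j, P z i j = P z j i := by
    intro z i j
    have h1 := (hPp z).1
    rw [Matrix.IsHermitian, Matrix.conjTranspose_eq_transpose_of_trivial] at h1
    exact congrFun (congrFun h1 j) i
  obtain ⟨-, -, -, h4⟩ := field_id h hU hV hMA hBU hBV hI hP hs
  have hnn : 0 ≤ ∫ z, Real.exp (-V z) *
      (P z * (hess φ z * hess U (gr φ z) * hess φ z)).trace := by
    refine integral_nonneg fun z => mul_nonneg (Real.exp_pos _).le ?_
    refine trace_mul_nonneg (hPp z) ?_
    have hsU : (hess U (gr φ z)).transpose = hess U (gr φ z) := by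
      ext i j; exact hess_symm hU (gr φ z) j i
    have h1 := (psd_of_qf hsU (hcv (gr φ z))).mul_mul_conjTranspose_same (hess φ z)
    rwa [Matrix.conjTranspose_eq_transpose_of_trivial, hess_transpose h z] at h1
  linarith

end Vale.Agent.P254.S290
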