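import Vale.Agent.P254.S290.Swap
import Vale.Agent.P254.S290.Alg

set_option linter.all false

/-!
# P254, S-ID: the integrated Monge-Ampere identity for `C^{2,1}` potentials
-/

open MeasureTheory Filter Topology
open scoped NNReal ContDiff

namespace Vale.Agent.P254.S290

variable {n : ℕ} {φ U V : E n → ℝ} {c C K a : ℝ}

/-- the Monge-Ampere equation `e^{-V} = const e^{-U(∇φ)} det D²φ` -/
def MA (φ U V : E n → ℝ) (a : ℝ) : Prop := ∀ z, U (gr φ z) = V z + Real.log (hess φ z).det + a

lemma contDiff_pd' {f : E n → ℝ} (hf : ContDiff ℝ 2 f) (i : Fin n) : ContDiff ℝ 1 (pd i f) := by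
  unfold pd
  exact (hf.fderiv_right (m := 1) (by norm_num)).clm_apply contDiff_const

lemma gr_apply (z : E n) (i : Fin n) : gr φ z i = pd i φ z := rfl

lemma contDiff_gr (h : ContDiff ℝ 2 φ) : ContDiff ℝ 1 (gr φ) := by
  rw [contDiff_euclidean]
  intro i
  exact contDiff_pd' h i

lemma diff_of_C1 {f : E n → ℝ} (hf : ContDiff ℝ 1 f) (x : E n) : DifferentiableAt ℝ f x :=
  (hf.differentiable (by norm_num)).differentiableAt

/-- chain rule for `w (∇φ)` -/
lemma pd_comp_gr (h : ContDiff ℝ 2 φ) {w : E n → ℝ} {z : E n} (hw : DifferentiableAt ℝ w (gr φ z)) (i : Fin n) :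
    pd i (fun z => w (gr φ z)) z = ∑ l, pd l w (gr φ z) * hess φ z i l := by
  have hg : DifferentiableAt ℝ (gr φ) z := ((contDiff_gr h).differentiable (by norm_num)).differentiableAt
  have h1 : HasFDerivAt (fun z => w (gr φ z)) ((fderiv ℝ w (gr φ z)).comp (fderiv ℝ (gr φ) z)) z :=
    hw.hasFDerivAt.comp z hg.hasFDerivAt
  unfold pd
  rw [h1.fderiv, ContinuousLinearMap.comp_apply]
  have h2 : ∀ l, (fderiv ℝ (gr φ) z (ei i)) l = hess φ z i l := by
    intro l
    have h3 : HasFDerivAt (fun z => gr φ z l)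
        ((EuclideanSpace.proj l : E n →L[ℝ] ℝ).comp (fderiv ℝ (gr φ) z)) z :=
      (EuclideanSpace.proj l : E n →L[ℝ] ℝ).hasFDerivAt.comp z hg.hasFDerivAt
    have h4 : hess φ z i l = fderiv ℝ (fun z => gr φ z l) z (ei i) := rfl
    rw [h4, h3.fderiv]
    rfl
  conv_lhs => rw [vec_eq_sum (fderiv ℝ (gr φ) z (ei i)), map_sum]
  refine Finset.sum_congr rfl fun l _ => ?_
  rw [map_smul, smul_eq_mul, h2, mul_comm]

/-- `Q_k = ∂_k U (∇φ)` -/
noncomputable def Qf (φ U : E n → ℝ) (k : Fin n) (z : E n) : ℝ := pd k U (gr φ z)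

lemma contDiff_Qf (h : ContDiff ℝ 2 φ) (hU : ContDiff ℝ 2 U) (k : Fin n) : ContDiff ℝ 1 (Qf φ U k) :=
  (contDiff_pd' hU k).comp (contDiff_gr h)

lemma pd_Qf (h : ContDiff ℝ 2 φ) (hU : ContDiff ℝ 2 U) (k i : Fin n) (z : E n) :
    pd i (Qf φ U k) z = ∑ l, hess U (gr φ z) l k * hess φ z i l :=
  pd_comp_gr h (diff_of_C1 (contDiff_pd' hU k) _) i

/-- `G_j = (M Q)_j - ∂_j V` -/
noncomputable def Gf (φ U V : E n → ℝ) (j : Fin n) (z : E n) : ℝ :=
  ∑ k, hess φ z j k * Qf φ U k z - pd j V z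

lemma Ld_eq (h : PC φ c C K) (hU : ContDiff ℝ 2 U) (hV : ContDiff ℝ 2 V) (hMA : MA φ U V a)
    {z : E n} (hz : Good φ z) (j : Fin n) : Ld φ z j = Gf φ U V j z := by
  have h1 := pd_log_det h hz j
  have h2 : (fun z => Real.log (hess φ z).det) = fun z => U (gr φ z) - V z - a := by
    funext z; rw [hMA z]; ring
  have hUg : DifferentiableAt ℝ (fun z => U (gr φ z)) z := by
    have : ContDiff ℝ 1 (fun z => U (gr φ z)) := (hU.of_le (by norm_num)).comp (contDiff_gr h.C2)
    exact diff_of_C1 this z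
  have hVd : DifferentiableAt ℝ V z := diff_of_C1 (hV.of_le (by norm_num)) z
  rw [← h1.2, h2, pd_sub (hUg.fun_sub hVd) (differentiableAt_const _), pd_sub hUg hVd, pd_const,
    pd_comp_gr h.C2 (diff_of_C1 (hU.of_le (by norm_num)) _), Gf, sub_zero]
  congr 1
  refine Finset.sum_congr rfl fun l _ => ?_
  rw [Qf, mul_comm]

lemma hess_abs_le (h : PC φ c C K) (z : E n) (i j : Fin n) : |hess φ z i j| ≤ 2 * |C| := by
  have key : ∀ v : E n, |qf (hess φ z) v| ≤ |C| * ‖v‖ ^ 2 := by
    intro v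
    have h1 := h.lower z v
    have h2 := h.upper z v
    have h3 : 0 ≤ c * ‖v‖ ^ 2 := mul_nonneg h.c_pos.le (sq_nonneg _)
    rw [abs_le]
    have h4 : C * ‖v‖ ^ 2 ≤ |C| * ‖v‖ ^ 2 := mul_le_mul_of_nonneg_right (le_abs_self _) (sq_nonneg _)
    constructor
    · have : 0 ≤ |C| * ‖v‖ ^ 2 := by positivity
      linarith
    · linarith
  have hexp : ∀ v : E n, qf (hess φ z) v = ∑ p, v p * ∑ q, hess φ z p q * v q := by
    intro v
    unfold qf
    refine Finset.sum_congr rfl fun p _ => ?_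
    rw [Finset.mul_sum]
    exact Finset.sum_congr rfl fun q _ => by ring
  by_cases hij : i = j
  · subst hij
    have h1 := key (ei i)
    have h2 : qf (hess φ z) (ei i) = hess φ z i i := by
      rw [hexp]; simp [ei, Pi.single_apply]
    rw [h2, norm_ei] at h1
    have : |C| * 1 ^ 2 ≤ 2 * |C| := by nlinarith [abs_nonneg C]
    linarith
  · have h1 := key (ei i + ei j)
    have h2 := key (ei i - ei j)
    have e1 : qf (hess φ z) (ei i + ei j) - qf (hess φ z) (ei i - ei j) = 4 * hess φ z i j := by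
      unfold qf
      rw [← Finset.sum_sub_distrib]
      simp only [← Finset.sum_sub_distrib]
      have e2 : ∀ p q : Fin n, hess φ z p q * (ei i + ei j : E n) p * (ei i + ei j : E n) q
          - hess φ z p q * (ei i - ei j : E n) p * (ei i - ei j : E n) q
          = hess φ z p q * (2 * ((ei i : E n) p * (ei j : E n) q) + 2 * ((ei j : E n) p * (ei i : E n) q)) := by
        intro p q
        simp only [PiLp.add_apply, PiLp.sub_apply]
        ring
      simp only [e2, mul_add, Finset.sum_add_distrib]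
      have e3 : ∀ i j : Fin n, ∑ p, ∑ q, hess φ z p q * (2 * ((ei i : E n) p * (ei j : E n) q))
          = 2 * hess φ z i j := by
        intro i j
        simp [ei, Pi.single_apply]
        ring
      rw [e3 i j, e3 j i, hess_symm h.C2 z j i]
      ring
    have hn1 : ‖(ei i + ei j : E n)‖ ^ 2 ≤ 4 := by
      have := norm_add_le (ei i : E n) (ei j)
      rw [norm_ei, norm_ei] at this
      nlinarith [norm_nonneg (ei i + ei j : E n)]
    have hn2 : ‖(ei i - ei j : E n)‖ ^ 2 ≤ 4 := by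
      have := norm_sub_le (ei i : E n) (ei j)
      rw [norm_ei, norm_ei] at this
      nlinarith [norm_nonneg (ei i - ei j : E n)]
    have h5 : |4 * hess φ z i j| ≤ |C| * 4 + |C| * 4 := by
      rw [← e1]
      refine (abs_sub _ _).trans (add_le_add (h1.trans ?_) (h2.trans ?_))
      · exact mul_le_mul_of_nonneg_left hn1 (abs_nonneg _)
      · exact mul_le_mul_of_nonneg_left hn2 (abs_nonneg _)
    rw [abs_mul] at h5
    norm_num at h5
    linarith

lemma hess_BL (h : PC φ c C K) (i j : Fin n) : BL (fun z => hess φ z i j) :=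
  ⟨K.toNNReal, 2 * |C|, hess_lip h i j, fun z => hess_abs_le h z i j⟩

lemma contDiff_w (hV : ContDiff ℝ 2 V) : ContDiff ℝ 1 (fun z => Real.exp (-V z)) :=
  Real.contDiff_exp.comp (hV.of_le (by norm_num)).neg

lemma pd_w (hV : ContDiff ℝ 2 V) (i : Fin n) (x : E n) :
    pd i (fun z => Real.exp (-V z)) x = - pd i V x * Real.exp (-V x) := by
  have h1 : DifferentiableAt ℝ V x := diff_of_C1 (hV.of_le (by norm_num)) x
  unfold pd
  rw [fderiv_exp h1.fun_neg, fderiv_fun_neg]
  simp; ring

/-- `S_ij = tr (Ψ M_i Ψ M_j)` -/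
noncomputable def Sf (φ : E n → ℝ) (z : E n) (i j : Fin n) : ℝ :=
  ∑ p, ∑ q, ∑ r, ∑ s, tau φ z p r * T3 φ z i r s * tau φ z s q * T3 φ z j p q

/-- `(M W M)_ij` -/
noncomputable def MWM (φ U : E n → ℝ) (z : E n) (i j : Fin n) : ℝ :=
  ∑ k, ∑ l, hess φ z i l * hess U (gr φ z) l k * hess φ z k j

/-- **integrated Monge-Ampere identity**, compactly supported test function -/
theorem ident_BLC (h : PC φ c C K) (hU : ContDiff ℝ 2 U) (hV : ContDiff ℝ 2 V) (hMA : MA φ U V a)
    {f : E n → ℝ} (hf : BLC f) (i j : Fin n) :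
    ∫ z, Real.exp (-V z) * (f z * (hess V z i j - Sf φ z i j - MWM φ U z i j)
      - ∑ a, ∑ b, tau φ z a b * pd a f z * T3 φ z b i j) = 0 := by
  set w : E n → ℝ := fun z => Real.exp (-V z) with hw
  have hwC : ContDiff ℝ 1 w := contDiff_w hV
  set g : E n → ℝ := fun z => f z * w z with hg
  have hgB : BLC g := hf.mul_C1 hwC
  set H : Fin n → Fin n → E n → ℝ := fun a b z => tau φ z a b * g z with hH
  have hHB : ∀ a b, BLC (H a b) := fun a b => BLC.mul_left (tau_BL h a b) hgB
  -- swap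
  have hsw : ∀ a b, ∫ z, pd a (fun z => hess φ z j b) z * pd i (H a b) z
      = ∫ z, pd i (fun z => hess φ z j b) z * pd a (H a b) z := fun a b =>
    swap (hess_lip h j b) (hHB a b) a i
  have hint : ∀ (a' b i' : Fin n) (F : E n → ℝ), BLC F →
      Integrable (fun z => pd a' (fun z => hess φ z j b) z * pd i' F z) := by
    intro a' b i' F hF
    refine (hF.integrable_pd i').bdd_mul (c := K.toNNReal) (measurable_pd _ _).aestronglyMeasurable ?_
    exact Eventually.of_forall fun x => by simpa using pd_bound_of_lip (hess_lip h j b) a' x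
  have hint2 : ∀ a b, Integrable (fun z => pd a (fun z => hess φ z j b) z * pd i (H a b) z
      - pd i (fun z => hess φ z j b) z * pd a (H a b) z) := fun a b =>
    (hint a b i _ (hHB a b)).sub (hint i b a _ (hHB a b))
  have hint3 : ∀ a, Integrable (fun z => ∑ b, (pd a (fun z => hess φ z j b) z * pd i (H a b) z
      - pd i (fun z => hess φ z j b) z * pd a (H a b) z)) := fun a =>
    integrable_finsetSum _ fun b _ => hint2 a b
  have hR : ∫ z, ∑ a, ∑ b, (pd a (fun z => hess φ z j b) z * pd i (H a b) z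
      - pd i (fun z => hess φ z j b) z * pd a (H a b) z) = 0 := by
    rw [integral_finsetSum _ (fun a _ => hint3 a)]
    refine Finset.sum_eq_zero fun a _ => ?_
    rw [integral_finsetSum _ (fun b _ => hint2 a b)]
    refine Finset.sum_eq_zero fun b _ => ?_
    rw [integral_sub (hint a b i _ (hHB a b)) (hint i b a _ (hHB a b)), hsw a b, sub_self]
  -- divergence
  have hGB : BLC (fun z => g z * Gf φ U V j z) := by
    have h1 : (fun z => g z * Gf φ U V j z)
        = fun z => (∑ k, (hess φ z j k * g z) * Qf φ U k z) - g z * pd j V z := by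
      funext z
      rw [Gf, mul_sub, Finset.mul_sum]
      congr 1
      exact Finset.sum_congr rfl fun k _ => by ring
    rw [h1]
    exact (BLC.sum _ fun k _ => (BLC.mul_left (hess_BL h j k) hgB).mul_C1 (contDiff_Qf h.C2 hU k)).sub
      (hgB.mul_C1 (contDiff_pd' hV j))
  have hF2 := integral_pd hGB i
  have hRint : Integrable (fun z => ∑ a, ∑ b, (pd a (fun z => hess φ z j b) z * pd i (H a b) z
      - pd i (fun z => hess φ z j b) z * pd a (H a b) z)) :=
    integrable_finsetSum _ (fun a _ => hint3 a)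
  have hfin : ∫ z, ((∑ a, ∑ b, (pd a (fun z => hess φ z j b) z * pd i (H a b) z
      - pd i (fun z => hess φ z j b) z * pd a (H a b) z)) - pd i (fun z => g z * Gf φ U V j z) z) = 0 := by
    rw [integral_sub hRint (hGB.integrable_pd i), hR, hF2, sub_zero]
  rw [← hfin]
  refine integral_congr_ae ?_
  filter_upwards [ae_good h, hf.1.ae_diff] with z hz hfz
  -- pointwise
  have hwd : DifferentiableAt ℝ w z := diff_of_C1 hwC z
  have hgd : DifferentiableAt ℝ g z := hfz.fun_mul hwd
  have hpg : ∀ a, pd a g z = w z * (pd a f z - f z * pd a V z) := by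
    intro a
    rw [hg, pd_mul hfz hwd, hw, pd_w hV]
    ring
  have hpH : ∀ e a b, pd e (H a b) z
      = -(∑ p, ∑ q, tau φ z a p * T3 φ z e p q * tau φ z q b) * (f z * w z)
        + tau φ z a b * (w z * (pd e f z - f z * pd e V z)) := by
    intro e a b
    rw [hH]
    simp only
    rw [pd_mul (hz.2 a b) hgd, pd_tau h hz, hpg]
  have hGfd : DifferentiableAt ℝ (Gf φ U V j) z := by
    unfold Gf
    refine DifferentiableAt.fun_sub (DifferentiableAt.fun_sum fun k _ =>
      (hz.1 j k).fun_mul (diff_of_C1 (contDiff_Qf h.C2 hU k) z)) (diff_of_C1 (contDiff_pd' hV j) z)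
  have hpG : pd i (Gf φ U V j) z = (∑ k, (T3 φ z i j k * Qf φ U k z
      + hess φ z j k * ∑ l, hess U (gr φ z) l k * hess φ z i l)) - hess V z i j := by
    have h1 : pd i (Gf φ U V j) z = pd i (fun z => (∑ k, hess φ z j k * Qf φ U k z) - pd j V z) z := rfl
    rw [h1, pd_sub (DifferentiableAt.fun_sum fun k _ =>
      (hz.1 j k).fun_mul (diff_of_C1 (contDiff_Qf h.C2 hU k) z)) (diff_of_C1 (contDiff_pd' hV j) z),
      pd_sum _ (fun k _ => (hz.1 j k).fun_mul (diff_of_C1 (contDiff_Qf h.C2 hU k) z))]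
    congr 1
    refine Finset.sum_congr rfl fun k _ => ?_
    rw [pd_mul (hz.1 j k) (diff_of_C1 (contDiff_Qf h.C2 hU k) z), pd_Qf h.C2 hU]
    rfl
  have hpGG : pd i (fun z => g z * Gf φ U V j z) z
      = w z * (pd i f z - f z * pd i V z) * (∑ k, hess φ z j k * Qf φ U k z - pd j V z)
        + f z * w z * ((∑ k, (T3 φ z i j k * Qf φ U k z
      + hess φ z j k * ∑ l, hess U (gr φ z) l k * hess φ z i l)) - hess V z i j) := by
    rw [pd_mul hgd hGfd, hpg, hpG]
    rfl
  have halg := ident_alg (fun a b => tau φ z a b) (fun a b => hess φ z a b)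
    (fun a b => hess U (gr φ z) a b) (fun a b k => T3 φ z a b k) (fun k => Qf φ U k z)
    (fun k => pd k V z) (fun k => pd k f z) (hess V z i j) (f z) (w z) i j
    (tau_symm h z) (hess_symm h.C2 z) (tau_hess_apply h z) (T3_symm12 h hz) (T3_symm23 h z)
    (fun j => Ld_eq h hU hV hMA hz j)
  have hSf : Sf φ z i j = ∑ a, ∑ b, ∑ p, ∑ q, tau φ z a p * T3 φ z i p q * tau φ z q b * T3 φ z j a b := rfl
  rw [hpGG, hSf, MWM, ← halg]
  congr 1
  refine Finset.sum_congr rfl fun a' _ => Finset.sum_congr rfl fun b _ => ?_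
  rw [hpH, hpH]
  rfl

end Vale.Agent.P254.S290
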