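import Vale.Agent.P254.S290.Ident

set_option linter.all false

/-!
# P254, S-ID: the identity for bounded Lipschitz test functions on the whole space
-/

open MeasureTheory Filter Topology
open scoped NNReal ContDiff

namespace Vale.Agent.P254.S290

variable {n : ℕ} {φ U V : E n → ℝ} {c C K a : ℝ}

/-- the integrand of the identity -/
noncomputable def Xf (φ U V : E n → ℝ) (i j : Fin n) (f : E n → ℝ) (z : E n) : ℝ :=
  f z * (hess V z i j - Sf φ z i j - MWM φ U z i j) - ∑ a, ∑ b, tau φ z a b * pd a f z * T3 φ z b i j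

lemma T3_abs_le (h : PC φ c C K) (z : E n) (b i j : Fin n) : |T3 φ z b i j| ≤ |K| := by
  have := pd_bound_of_lip (hess_lip h i j) b z
  refine this.trans ?_
  rw [Real.coe_toNNReal']
  exact max_le (le_abs_self _) (abs_nonneg _)

/-- `|∑ ...|` bound for quadruple sums -/
lemma Sf_abs_le (h : PC φ c C K) (z : E n) (i j : Fin n) :
    |Sf φ z i j| ≤ (n : ℝ) ^ 4 * ((1 / c) * |K| * (1 / c) * |K|) := by
  have hc : 0 ≤ 1 / c := by have := h.c_pos; positivity
  unfold Sf
  calc |∑ p, ∑ q, ∑ r, ∑ s, tau φ z p r * T3 φ z i r s * tau φ z s q * T3 φ z j p q|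
      ≤ ∑ p, ∑ q, ∑ r, ∑ s, |tau φ z p r * T3 φ z i r s * tau φ z s q * T3 φ z j p q| :=
        (Finset.abs_sum_le_sum_abs _ _).trans (Finset.sum_le_sum fun p _ =>
          (Finset.abs_sum_le_sum_abs _ _).trans (Finset.sum_le_sum fun q _ =>
            (Finset.abs_sum_le_sum_abs _ _).trans (Finset.sum_le_sum fun r _ =>
              Finset.abs_sum_le_sum_abs _ _)))
    _ ≤ ∑ _p : Fin n, ∑ _q : Fin n, ∑ _r : Fin n, ∑ _s : Fin n, ((1 / c) * |K| * (1 / c) * |K|) := by
        refine Finset.sum_le_sum fun p _ => Finset.sum_le_sum fun q _ => Finset.sum_le_sum fun r _ =>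
          Finset.sum_le_sum fun s _ => ?_
        rw [abs_mul, abs_mul, abs_mul]
        refine mul_le_mul (mul_le_mul (mul_le_mul (tau_bound h z p r) (T3_abs_le h z i r s) (abs_nonneg _) hc)
          (tau_bound h z s q) (abs_nonneg _) (by positivity)) (T3_abs_le h z j p q) (abs_nonneg _) (by positivity)
    _ = _ := by
        simp only [Finset.sum_const, Finset.card_univ, Fintype.card_fin, nsmul_eq_mul]
        ring

lemma MWM_abs_le (h : PC φ c C K) {BU : ℝ} (hBU : ∀ y i j, |hess U y i j| ≤ BU) (z : E n) (i j : Fin n) :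
    |MWM φ U z i j| ≤ (n : ℝ) ^ 2 * (2 * |C| * BU * (2 * |C|)) := by
  have hB0 : 0 ≤ BU := (abs_nonneg _).trans (hBU z i j)
  unfold MWM
  calc |∑ k, ∑ l, hess φ z i l * hess U (gr φ z) l k * hess φ z k j|
      ≤ ∑ k, ∑ l, |hess φ z i l * hess U (gr φ z) l k * hess φ z k j| :=
        (Finset.abs_sum_le_sum_abs _ _).trans (Finset.sum_le_sum fun p _ => Finset.abs_sum_le_sum_abs _ _)
    _ ≤ ∑ _p : Fin n, ∑ _q : Fin n, (2 * |C| * BU * (2 * |C|)) := by
        refine Finset.sum_le_sum fun p _ => Finset.sum_le_sum fun q _ => ?_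
        rw [abs_mul, abs_mul]
        exact mul_le_mul (mul_le_mul (hess_abs_le h z _ _) (hBU _ _ _) (abs_nonneg _) (by positivity))
          (hess_abs_le h z _ _) (abs_nonneg _) (by positivity)
    _ = _ := by
        simp only [Finset.sum_const, Finset.card_univ, Fintype.card_fin, nsmul_eq_mul]
        ring

lemma Xf_abs_le (h : PC φ c C K) {BU BV : ℝ} (hBU : ∀ y i j, |hess U y i j| ≤ BU)
    (hBV : ∀ y i j, |hess V y i j| ≤ BV) (i j : Fin n) :
    ∃ D : ℝ, 0 ≤ D ∧ ∀ (f : E n → ℝ) (z : E n), |Xf φ U V i j f z| ≤ D * (|f z| + ∑ a, |pd a f z|) := by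
  have hc : 0 ≤ 1 / c := by have := h.c_pos; positivity
  set D1 : ℝ := BV + (n : ℝ) ^ 4 * ((1 / c) * |K| * (1 / c) * |K|) + (n : ℝ) ^ 2 * (2 * |C| * BU * (2 * |C|)) with hD1
  set D2 : ℝ := (n : ℝ) * ((1 / c) * |K|) with hD2
  have hBV0 : 0 ≤ BV := (abs_nonneg _).trans (hBV 0 i j)
  have hBU0 : 0 ≤ BU := (abs_nonneg _).trans (hBU 0 i j)
  have hD1' : 0 ≤ D1 := by positivity
  have hD2' : 0 ≤ D2 := by positivity
  refine ⟨D1 + D2, by positivity, fun f z => ?_⟩
  have e1 : |f z * (hess V z i j - Sf φ z i j - MWM φ U z i j)| ≤ D1 * |f z| := by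
    rw [abs_mul, mul_comm]
    refine mul_le_mul_of_nonneg_right ?_ (abs_nonneg _)
    refine (abs_sub _ _).trans (add_le_add ((abs_sub _ _).trans (add_le_add (hBV z i j) (Sf_abs_le h z i j)))
      (MWM_abs_le h hBU z i j))
  have e2 : |∑ a, ∑ b, tau φ z a b * pd a f z * T3 φ z b i j| ≤ D2 * ∑ a, |pd a f z| := by
    calc |∑ a, ∑ b, tau φ z a b * pd a f z * T3 φ z b i j|
        ≤ ∑ a, ∑ b, |tau φ z a b * pd a f z * T3 φ z b i j| :=
          (Finset.abs_sum_le_sum_abs _ _).trans (Finset.sum_le_sum fun p _ => Finset.abs_sum_le_sum_abs _ _)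
      _ ≤ ∑ a, ∑ _b : Fin n, (1 / c) * |pd a f z| * |K| := by
          refine Finset.sum_le_sum fun a _ => Finset.sum_le_sum fun b _ => ?_
          rw [abs_mul, abs_mul]
          exact mul_le_mul (mul_le_mul (tau_bound h z a b) le_rfl (abs_nonneg _) hc)
            (T3_abs_le h z b i j) (abs_nonneg _) (by positivity)
      _ = _ := by
          simp only [Finset.sum_const, Finset.card_univ, Fintype.card_fin, nsmul_eq_mul, Finset.mul_sum]
          refine Finset.sum_congr rfl fun a _ => ?_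
          rw [hD2]; ring
  have hs : 0 ≤ ∑ a, |pd a f z| := Finset.sum_nonneg fun _ _ => abs_nonneg _
  calc |Xf φ U V i j f z| ≤ D1 * |f z| + D2 * ∑ a, |pd a f z| := (abs_sub _ _).trans (add_le_add e1 e2)
    _ ≤ (D1 + D2) * (|f z| + ∑ a, |pd a f z|) := by
        have := mul_nonneg hD1' hs
        have := mul_nonneg hD2' (abs_nonneg (f z))
        nlinarith

lemma measurable_hess (f : E n → ℝ) (i j : Fin n) : Measurable (fun z => hess f z i j) := measurable_pd i _

lemma measurable_tau (h : PC φ c C K) (i j : Fin n) : Measurable (fun z => tau φ z i j) :=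
  (tau_BL h i j).continuous.measurable

lemma measurable_T3 (b i j : Fin n) : Measurable (fun z => T3 φ z b i j) := measurable_pd b _

lemma measurable_MWM (h : PC φ c C K) (i j : Fin n) : Measurable (fun z => MWM φ U z i j) := by
  unfold MWM
  refine Finset.measurable_sum _ fun k _ => Finset.measurable_sum _ fun l _ => ?_
  exact ((measurable_hess φ i l).mul ((measurable_hess U l k).comp (contDiff_gr h.C2).continuous.measurable)).mul
    (measurable_hess φ k j)

lemma measurable_Sf (h : PC φ c C K) (i j : Fin n) : Measurable (fun z => Sf φ z i j) := by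
  unfold Sf
  refine Finset.measurable_sum _ fun p _ => Finset.measurable_sum _ fun q _ =>
    Finset.measurable_sum _ fun r _ => Finset.measurable_sum _ fun s _ => ?_
  exact (((measurable_tau h p r).mul (measurable_T3 i r s)).mul (measurable_tau h s q)).mul (measurable_T3 j p q)

lemma measurable_Xf (h : PC φ c C K) {f : E n → ℝ} (hf : Measurable f) (i j : Fin n) :
    Measurable (Xf φ U V i j f) := by
  unfold Xf
  refine Measurable.sub ?_ ?_
  · exact hf.mul (((measurable_hess V i j).sub (measurable_Sf h i j)).sub (measurable_MWM h i j))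
  · exact Finset.measurable_sum _ fun a _ => Finset.measurable_sum _ fun b _ =>
      ((measurable_tau h a b).mul (measurable_pd a f)).mul (measurable_T3 b i j)

lemma pd_scale {χ : E n → ℝ} (hχ : ContDiff ℝ 1 χ) (r : ℝ) (b : Fin n) (z : E n) :
    pd b (fun z => χ (r • z)) z = r * pd b χ (r • z) := by
  have h1 : HasFDerivAt (fun z : E n => r • z) (r • ContinuousLinearMap.id ℝ (E n)) z :=
    (hasFDerivAt_id z).const_smul r
  have h2 : HasFDerivAt χ (fderiv ℝ χ (r • z)) (r • z) := (diff_of_C1 hχ _).hasFDerivAt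
  have h3 := HasFDerivAt.comp (g := χ) (f := fun z : E n => r • z) z h2 h1
  have h4 : HasFDerivAt (fun z => χ (r • z)) ((fderiv ℝ χ (r • z)).comp (r • ContinuousLinearMap.id ℝ (E n))) z := h3
  unfold pd
  rw [h4.fderiv]
  simp

/-- **integrated Monge-Ampere identity** for bounded Lipschitz `f` -/
theorem ident_BL (h : PC φ c C K) (hU : ContDiff ℝ 2 U) (hV : ContDiff ℝ 2 V) (hMA : MA φ U V a)
    {BU BV : ℝ} (hBU : ∀ y i j, |hess U y i j| ≤ BU) (hBV : ∀ y i j, |hess V y i j| ≤ BV)
    (hI : Integrable fun z => Real.exp (-V z)) {f : E n → ℝ} (hf : BL f) (i j : Fin n) :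
    ∫ z, Real.exp (-V z) * Xf φ U V i j f z = 0 := by
  obtain ⟨Kf, Bf, hKf, hBf⟩ := hf
  obtain ⟨D, hD0, hD⟩ := Xf_abs_le h hBU hBV i j
  have hBf0 : 0 ≤ Bf := (abs_nonneg _).trans (hBf 0)
  let χ : ContDiffBump (0 : E n) := ⟨1, 2, one_pos, one_lt_two⟩
  have hχC : ContDiff ℝ 1 χ := χ.contDiff (n := 1)
  obtain ⟨Lχ, hLχ⟩ := hχC.lipschitzWith_of_hasCompactSupport χ.hasCompactSupport (by norm_num)
  set r : ℕ → ℝ := fun m => 1 / ((m : ℝ) + 1) with hr
  have hr0 : ∀ m, 0 < r m := fun m => by rw [hr]; positivity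
  have hr1 : ∀ m, r m ≤ 1 := fun m => by
    rw [hr]; simp only
    rw [div_le_one (by positivity)]
    have : (0 : ℝ) ≤ m := Nat.cast_nonneg m
    linarith
  set F : ℕ → E n → ℝ := fun m z => f z * χ (r m • z) with hF
  have hχm : ∀ m, BLC (fun z => χ (r m • z)) := by
    intro m
    refine blc_of_C1 (hχC.comp (contDiff_const_smul _)) ?_
    exact χ.hasCompactSupport.comp_smul (hr0 m).ne'
  have hFB : ∀ m, BLC (F m) := fun m => BLC.mul_left ⟨Kf, Bf, hKf, hBf⟩ (hχm m)
  have hzero : ∀ m, ∫ z, Real.exp (-V z) * Xf φ U V i j (F m) z = 0 := fun m =>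
    ident_BLC h hU hV hMA (hFB m) i j
  -- convergence
  have hev : ∀ z : E n, ∀ᶠ m : ℕ in atTop, F m =ᶠ[𝓝 z] f := by
    intro z
    have h1 : Tendsto (fun m : ℕ => r m * (‖z‖ + 1)) atTop (𝓝 0) := by
      have := (tendsto_one_div_add_atTop_nhds_zero_nat (𝕜 := ℝ)).mul_const (‖z‖ + 1)
      simpa [hr] using this
    filter_upwards [h1.eventually (gt_mem_nhds one_pos)] with m hm
    have h2 : ∀ᶠ y in 𝓝 z, ‖y‖ < ‖z‖ + 1 :=
      (continuous_norm.tendsto z).eventually (gt_mem_nhds (lt_add_one _))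
    filter_upwards [h2] with y hy
    have h3 : r m • y ∈ Metric.closedBall (0 : E n) χ.rIn := by
      rw [mem_closedBall_zero_iff, norm_smul, Real.norm_eq_abs, abs_of_pos (hr0 m)]
      have : r m * ‖y‖ ≤ r m * (‖z‖ + 1) := mul_le_mul_of_nonneg_left hy.le (hr0 m).le
      exact (this.trans hm.le)
    rw [hF]
    simp only
    rw [χ.one_of_mem_closedBall h3, mul_one]
  have hlim : Tendsto (fun m => ∫ z, Real.exp (-V z) * Xf φ U V i j (F m) z) atTop
      (𝓝 (∫ z, Real.exp (-V z) * Xf φ U V i j f z)) := by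
    refine tendsto_integral_of_dominated_convergence
      (fun z => Real.exp (-V z) * (D * (Bf + n * (Kf + Bf * Lχ)))) ?_ ?_ ?_ ?_
    · intro m
      exact ((contDiff_w hV).continuous.measurable.mul
        (measurable_Xf h (hFB m).1.continuous.measurable i j)).aestronglyMeasurable
    · exact hI.mul_const _
    · intro m
      filter_upwards [hKf.ae_differentiableAt] with z hz
      rw [norm_mul, Real.norm_eq_abs, abs_of_pos (Real.exp_pos _)]
      refine mul_le_mul_of_nonneg_left ?_ (Real.exp_pos _).le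
      rw [Real.norm_eq_abs]
      refine (hD (F m) z).trans (mul_le_mul_of_nonneg_left ?_ hD0)
      have hχ1 : |χ (r m • z)| ≤ 1 := by
        rw [abs_of_nonneg χ.nonneg]; exact χ.le_one
      refine add_le_add ?_ ?_
      · rw [hF]; simp only
        rw [abs_mul]
        calc |f z| * |χ (r m • z)| ≤ Bf * 1 := mul_le_mul (hBf z) hχ1 (abs_nonneg _) hBf0
          _ = Bf := mul_one _
      · have : ∀ b : Fin n, |pd b (F m) z| ≤ Kf + Bf * Lχ := by
          intro b
          have hχd : DifferentiableAt ℝ (fun z => χ (r m • z)) z :=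
            diff_of_C1 (hχC.comp (contDiff_const_smul _)) z
          rw [hF]; simp only
          rw [pd_mul hz hχd, pd_scale hχC]
          refine (abs_add_le _ _).trans (add_le_add ?_ ?_)
          · rw [abs_mul]
            calc |pd b f z| * |χ (r m • z)| ≤ Kf * 1 :=
                  mul_le_mul (pd_bound_of_lip hKf b z) hχ1 (abs_nonneg _) Kf.2
              _ = Kf := mul_one _
          · rw [abs_mul, abs_mul, abs_of_pos (hr0 m)]
            refine mul_le_mul (hBf z) ?_ (by positivity) hBf0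
            calc r m * |pd b χ (r m • z)| ≤ 1 * Lχ :=
                  mul_le_mul (hr1 m) (pd_bound_of_lip hLχ b _) (abs_nonneg _) zero_le_one
              _ = Lχ := one_mul _
        calc ∑ b, |pd b (F m) z| ≤ ∑ _b : Fin n, ((Kf : ℝ) + Bf * Lχ) := Finset.sum_le_sum fun b _ => this b
          _ = n * (Kf + Bf * Lχ) := by simp; ring
    · refine Eventually.of_forall fun z => ?_
      refine tendsto_const_nhds.congr' ?_
      filter_upwards [hev z] with m hm
      congr 1
      unfold Xf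
      rw [hm.eq_of_nhds]
      congr 1
      refine Finset.sum_congr rfl fun a _ => Finset.sum_congr rfl fun b _ => ?_
      unfold pd
      rw [hm.fderiv_eq]
  exact (tendsto_nhds_unique hlim (by simp only [hzero]; exact tendsto_const_nhds))

lemma integrable_Xf (h : PC φ c C K) (hV : ContDiff ℝ 2 V)
    {BU BV : ℝ} (hBU : ∀ y i j, |hess U y i j| ≤ BU) (hBV : ∀ y i j, |hess V y i j| ≤ BV)
    (hI : Integrable fun z => Real.exp (-V z)) {f : E n → ℝ} (hf : BL f) (i j : Fin n) :
    Integrable fun z => Real.exp (-V z) * Xf φ U V i j f z := by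
  obtain ⟨Kf, Bf, hKf, hBf⟩ := hf
  obtain ⟨D, hD0, hD⟩ := Xf_abs_le h hBU hBV i j
  refine hI.mul_bdd (c := D * (Bf + n * Kf)) (measurable_Xf h hKf.continuous.measurable i j).aestronglyMeasurable ?_
  refine Eventually.of_forall fun z => ?_
  rw [Real.norm_eq_abs]
  refine (hD f z).trans (mul_le_mul_of_nonneg_left (add_le_add (hBf z) ?_) hD0)
  calc ∑ b, |pd b f z| ≤ ∑ _b : Fin n, (Kf : ℝ) := Finset.sum_le_sum fun b _ => pd_bound_of_lip hKf b z
    _ = n * Kf := by simp

end Vale.Agent.P254.S290
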