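import Vale.Agent.P254.S.H130.En
import Vale.Agent.P254.S.H332.Fc
import Vale.Agent.P254.S290.Field
import Vale.Agent.P254.S290.Main

set_option linter.all false

/-!
# P254, S-ID for a weight field / for polynomials: `Vale.Agent.P254.S130.StmtIDp`
-/

open MeasureTheory Filter Topology Polynomial
open scoped NNReal ContDiff MatrixOrder

namespace Vale.Agent.P254.S290

lemma bl_of (n : ℕ) {f : E n → ℝ} (h : Vale.Agent.P254.S130.BL f) : BL f := by
  obtain ⟨⟨B, hB⟩, -⟩ := id h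
  obtain ⟨K, hK⟩ := h.lipschitz
  exact ⟨K, B, hK, hB⟩

/-- the identity in the language of the interface: `P` a symmetric matrix field with bounded Lipschitz
entries -/
theorem field_Q {n : ℕ} {φ V : E n → ℝ} {c C a b M κ : ℝ} (hV : Vale.Agent.P227.M.Reg V c C)
    (hB : Vale.Agent.P254.S.BP φ V a b M κ) {P : E n → Matrix (Fin n) (Fin n) ℝ}
    (hP : Vale.Agent.P254.S130.MBL P) (hs : ∀ z i j, P z i j = P z j i) :
    Vale.Agent.P227.M.Ex Vale.Agent.P254.S.Q (fun z =>
        ∑ i, ∑ j, P z i j * ((Vale.Agent.P227.M.hess φ z)⁻¹ * Vale.Agent.P254.S130.D3 φ i z *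
          (Vale.Agent.P227.M.hess φ z)⁻¹ * Vale.Agent.P254.S130.D3 φ j z).trace +
        ∑ a, ∑ b, (Vale.Agent.P227.M.hess φ z)⁻¹ a b *
          (Vale.Agent.P254.S130.D3 φ a z * Vale.Agent.P254.S130.DA P b z).trace) +
      Vale.Agent.P227.M.Ex Vale.Agent.P254.S.Q (fun z =>
        (P z * (Vale.Agent.P227.M.hess φ z * Vale.Agent.P227.M.hess V (gradient φ z) *
          Vale.Agent.P227.M.hess φ z)).trace) =
      Vale.Agent.P227.M.Ex Vale.Agent.P254.S.Q (fun z => (P z).trace) := by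
  have hpc : PC φ a b M := ⟨hB.a_pos, hB.C2, hB.lower, hB.upper, hB.lip⟩
  have hVC : ContDiff ℝ 2 V := hV.smooth.of_le (by norm_cast)
  have hMA : MA φ V (fun z : E n => ‖z‖ ^ 2 / 2) κ := by
    intro z
    rw [gr_eq_gradient]
    exact hB.ma z
  obtain ⟨BU, hBU⟩ := hV.bdd 2 le_rfl
  have hBU' : ∀ y i j, |hess V y i j| ≤ BU := fun y i j => hess_abs_of_bdd hVC hBU y i j
  have hBV : ∀ y i j, |hess (fun z : E n => ‖z‖ ^ 2 / 2) y i j| ≤ 1 := by
    intro y i j
    rw [hess_Q, Matrix.one_apply]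
    split_ifs <;> simp
  obtain ⟨-, -, -, h4⟩ := field_id hpc hVC contDiff_Q hMA hBU' hBV int_exp_Q
    (fun i j => bl_of n (hP i j)) hs
  unfold Vale.Agent.P227.M.Ex
  rw [← add_div]
  congr 1
  have e1 : ∫ z : E n, Real.exp (-(‖z‖ ^ 2 / 2)) * (P z * hess (fun z : E n => ‖z‖ ^ 2 / 2) z).trace =
      ∫ z : E n, (P z).trace * Real.exp (-Vale.Agent.P254.S.Q z) := by
    refine integral_congr_ae (Eventually.of_forall fun z => ?_)
    simp only
    rw [hess_Q, mul_one, mul_comm]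
    rfl
  have e3 : ∫ z : E n, Real.exp (-(‖z‖ ^ 2 / 2)) * (P z * (hess φ z * hess V (gr φ z) * hess φ z)).trace =
      ∫ z : E n, (P z * (Vale.Agent.P227.M.hess φ z * Vale.Agent.P227.M.hess V (gradient φ z) *
          Vale.Agent.P227.M.hess φ z)).trace * Real.exp (-Vale.Agent.P254.S.Q z) := by
    refine integral_congr_ae (Eventually.of_forall fun z => ?_)
    simp only
    rw [gr_eq_gradient, mul_comm]
    rfl
  have e2 : ∫ z : E n, Real.exp (-(‖z‖ ^ 2 / 2)) * LqF P φ z =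
      ∫ z : E n, (∑ i, ∑ j, P z i j * ((Vale.Agent.P227.M.hess φ z)⁻¹ * Vale.Agent.P254.S130.D3 φ i z *
          (Vale.Agent.P227.M.hess φ z)⁻¹ * Vale.Agent.P254.S130.D3 φ j z).trace +
        ∑ a, ∑ b, (Vale.Agent.P227.M.hess φ z)⁻¹ a b *
          (Vale.Agent.P254.S130.D3 φ a z * Vale.Agent.P254.S130.DA P b z).trace) *
              Real.exp (-Vale.Agent.P254.S.Q z) := by
    refine integral_congr_ae (Eventually.of_forall fun z => ?_)
    simp only
    rw [mul_comm]
    rfl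
  rw [← e1, ← e2, ← e3]
  exact h4

/-- the remainder is nonnegative for a positive semidefinite field -/
lemma field_rem_nonneg {n : ℕ} {φ V : E n → ℝ} {c C a b M κ : ℝ} (hV : Vale.Agent.P227.M.Reg V c C)
    (hB : Vale.Agent.P254.S.BP φ V a b M κ) {P : Matrix (Fin n) (Fin n) ℝ} (hPp : P.PosSemidef) (z : E n) :
    0 ≤ (P * (Vale.Agent.P227.M.hess φ z * Vale.Agent.P227.M.hess V (gradient φ z) *
          Vale.Agent.P227.M.hess φ z)).trace := by
  have hpc : PC φ a b M := ⟨hB.a_pos, hB.C2, hB.lower, hB.upper, hB.lip⟩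
  have hVC : ContDiff ℝ 2 V := hV.smooth.of_le (by norm_cast)
  have hcv : ∀ y v, 0 ≤ qf (hess V y) v := fun y v =>
    (mul_nonneg hV.c_pos.le (sq_nonneg _)).trans (hV.lower y v)
  refine trace_mul_nonneg hPp ?_
  have hsU : (hess V (gradient φ z)).transpose = hess V (gradient φ z) := by
    ext i j; exact hess_symm hVC (gradient φ z) j i
  have h1 := (psd_of_qf hsU (hcv (gradient φ z))).mul_mul_conjTranspose_same (hess φ z)
  rwa [Matrix.conjTranspose_eq_transpose_of_trivial, hess_transpose hpc z] at h1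

/-- the inequality for a positive semidefinite field -/
theorem field_Q_le {n : ℕ} {φ V : E n → ℝ} {c C a b M κ : ℝ} (hV : Vale.Agent.P227.M.Reg V c C)
    (hB : Vale.Agent.P254.S.BP φ V a b M κ) {P : E n → Matrix (Fin n) (Fin n) ℝ}
    (hP : Vale.Agent.P254.S130.MBL P) (hPp : ∀ z, (P z).PosSemidef) :
    Vale.Agent.P227.M.Ex Vale.Agent.P254.S.Q (fun z =>
        ∑ i, ∑ j, P z i j * ((Vale.Agent.P227.M.hess φ z)⁻¹ * Vale.Agent.P254.S130.D3 φ i z *
          (Vale.Agent.P227.M.hess φ z)⁻¹ * Vale.Agent.P254.S130.D3 φ j z).trace +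
        ∑ a, ∑ b, (Vale.Agent.P227.M.hess φ z)⁻¹ a b *
          (Vale.Agent.P254.S130.D3 φ a z * Vale.Agent.P254.S130.DA P b z).trace) ≤
      Vale.Agent.P227.M.Ex Vale.Agent.P254.S.Q (fun z => (P z).trace) := by
  have hs : ∀ z i j, P z i j = P z j i := by
    intro z i j
    have h1 := (hPp z).1
    rw [Matrix.IsHermitian, Matrix.conjTranspose_eq_transpose_of_trivial] at h1
    exact congrFun (congrFun h1 j) i
  have h1 := field_Q hV hB hP hs
  have h2 : 0 ≤ Vale.Agent.P227.M.Ex Vale.Agent.P254.S.Q (fun z =>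
        (P z * (Vale.Agent.P227.M.hess φ z * Vale.Agent.P227.M.hess V (gradient φ z) *
          Vale.Agent.P227.M.hess φ z)).trace) := by
    unfold Vale.Agent.P227.M.Ex
    refine div_nonneg (integral_nonneg fun z => ?_) (integral_nonneg fun z => (Real.exp_pos _).le)
    exact mul_nonneg (field_rem_nonneg hV hB (hPp z) z) (Real.exp_pos _).le
  linarith

/-- **S-ID for polynomials** -/
theorem stmtIDp : Vale.Agent.P254.S130.StmtIDp := by
  intro n φ V c C a b M κ hV hB p hp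
  obtain ⟨U, m, hS⟩ := Vale.Agent.P254.S332.exists_spec hB
  have hmbl := Vale.Agent.P254.S130.mbl_hess hB hS
  have hP := hmbl.aeval p
  have hPp : ∀ z, (aeval (Vale.Agent.P227.M.hess φ z) p : Matrix (Fin n) (Fin n) ℝ).PosSemidef := by
    intro z
    have h1 := Vale.Agent.P254.S130.aeval_diag (Vale.Agent.P254.S130.orth' hS z) (hS.dec z) p
    rw [h1, ← Matrix.conjTranspose_eq_transpose_of_trivial (U z)]
    refine Matrix.PosSemidef.mul_mul_conjTranspose_same ?_ _
    refine Matrix.PosSemidef.diagonal fun i => ?_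
    exact hp _ (Vale.Agent.P254.S130.eig_mem hB hS z i)
  have h2 := field_Q_le hV hB hP hPp
  refine le_trans (le_of_eq ?_) h2
  unfold Vale.Agent.P227.M.Ex
  congr 1
  have hae := Vale.Agent.P254.S130.ae_diff hmbl
  have hpc : PC φ a b M := ⟨hB.a_pos, hB.C2, hB.lower, hB.upper, hB.lip⟩
  refine integral_congr_ae ?_
  filter_upwards [ae_good hpc] with z hz
  congr 2
  refine Finset.sum_congr rfl fun i _ => Finset.sum_congr rfl fun j _ => ?_
  congr 3
  ext k l
  obtain ⟨L', hL', hv⟩ := Vale.Agent.P254.S130.hasFD_aeval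
    (A := Vale.Agent.P227.M.hess φ) (L := fun i j => fderiv ℝ (fun y => Vale.Agent.P227.M.hess φ y i j) z)
    (fun i j => (hz.1 i j).hasFDerivAt) p k l
  show _ = fderiv ℝ (fun y => (aeval (Vale.Agent.P227.M.hess φ y) p : Matrix (Fin n) (Fin n) ℝ) k l) z (ei j)
  rw [hL'.fderiv, hv]
  rfl

end Vale.Agent.P254.S290
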