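import Vale.Agent.P254.S290.Basic

set_option linter.all false

/-!
# P254, S-ID: `∫ ∂_a u ∂_i h = ∫ ∂_i u ∂_a h` for Lipschitz `u` and `h`, `h` compactly supported
-/

open MeasureTheory Filter Topology
open scoped NNReal ContDiff

namespace Vale.Agent.P254.S290

variable {n : ℕ}

/-- difference quotient in direction `s e_i` with step `t` -/
noncomputable def dq (i : Fin n) (t : ℝ) (u : E n → ℝ) (x : E n) : ℝ := t⁻¹ * (u (x + t • ei i) - u x)

lemma dq_bound {u : E n → ℝ} {D : ℝ≥0} (hu : LipschitzWith D u) (i : Fin n) (t : ℝ) (x : E n) :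
    |dq i t u x| ≤ D := by
  unfold dq
  rcases eq_or_ne t 0 with rfl | ht
  · simp
  · rw [abs_mul, abs_inv]
    have h1 : |u (x + t • ei i) - u x| ≤ D * |t| := by
      have := hu.dist_le_mul (x + t • ei i) x
      rw [Real.dist_eq, dist_eq_norm] at this
      simpa [norm_smul, norm_ei] using this
    have h2 : 0 < |t| := abs_pos.mpr ht
    rw [inv_mul_le_iff₀ h2, mul_comm]
    exact h1

lemma tendsto_dq {u : E n → ℝ} {x : E n} (hu : DifferentiableAt ℝ u x) (i : Fin n) :
    Tendsto (fun t : ℝ => dq i t u x) (𝓝[≠] 0) (𝓝 (pd i u x)) := by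
  have h1 : HasLineDerivAt ℝ u (pd i u x) x (ei i) := hu.hasFDerivAt.hasLineDerivAt (ei i)
  have h2 := h1.tendsto_slope_zero
  refine h2.congr' ?_
  filter_upwards with t
  simp [dq, smul_eq_mul]

lemma lip_dq {u : E n → ℝ} {D : ℝ≥0} (hu : LipschitzWith D u) (i : Fin n) (t : ℝ) :
    ∃ D' : ℝ≥0, LipschitzWith D' (dq i t u) := by
  have h1 : LipschitzWith (D + D) (fun x => u (x + t • ei i) - u x) := by
    have h2 : LipschitzWith D (fun x => u (x + t • ei i)) := by
      refine LipschitzWith.of_dist_le_mul fun x y => ?_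
      refine (hu.dist_le_mul _ _).trans ?_
      rw [dist_add_right]
    exact h2.sub hu
  refine ⟨‖t⁻¹‖₊ * (D + D), ?_⟩
  refine LipschitzWith.of_dist_le_mul fun x y => ?_
  have := h1.dist_le_mul x y
  rw [Real.dist_eq] at this ⊢
  unfold dq
  rw [← mul_sub, abs_mul, NNReal.coe_mul, mul_assoc]
  exact mul_le_mul_of_nonneg_left this (abs_nonneg _)

/-- the derivative of a difference quotient -/
lemma pd_dq {u : E n → ℝ} (a i : Fin n) (t : ℝ) {x : E n} (h1 : DifferentiableAt ℝ u (x + t • ei i))
    (h2 : DifferentiableAt ℝ u x) :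
    pd a (dq i t u) x = t⁻¹ * (pd a u (x + t • ei i) - pd a u x) := by
  unfold dq pd
  have h3 : HasFDerivAt (fun z => u (z + t • ei i)) (fderiv ℝ u (x + t • ei i)) x := by
    have h4 : HasFDerivAt (fun z : E n => z + t • ei i) (ContinuousLinearMap.id ℝ (E n)) x :=
      (hasFDerivAt_id x).add_const (t • ei i)
    have h5 := HasFDerivAt.comp (g := u) (f := fun z : E n => z + t • ei i) x h1.hasFDerivAt h4
    rw [ContinuousLinearMap.comp_id] at h5
    exact h5
  have h6 : HasFDerivAt (fun z => t⁻¹ * (u (z + t • ei i) - u z))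
      (t⁻¹ • (fderiv ℝ u (x + t • ei i) - fderiv ℝ u x)) x :=
    (h3.sub h2.hasFDerivAt).const_mul t⁻¹
  rw [h6.fderiv]
  simp

/-- the swap lemma -/
theorem swap {u h : E n → ℝ} {D : ℝ≥0} (hu : LipschitzWith D u) (hh : BLC h) (a i : Fin n) :
    ∫ x, pd a u x * pd i h x = ∫ x, pd i u x * pd a h x := by
  obtain ⟨Kh, Bh, hKh, hBh⟩ := hh.1
  -- step 1: discrete identity
  have key : ∀ t : ℝ, t ≠ 0 → ∫ x, pd a u x * dq i t h x = ∫ x, -(dq i (-t) u x) * (-(pd a h x)) := by
    intro t ht
    obtain ⟨D', hD'⟩ := lip_dq hu i (-t)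
    have hi1 : Integrable (fun x => pd a u x * h (x + t • ei i)) := by
      have h1 : Integrable (fun x => h (x + t • ei i)) := hh.integrable.comp_add_right _
      refine h1.bdd_mul (c := D) (measurable_pd a u).aestronglyMeasurable ?_
      exact Eventually.of_forall fun x => by simpa using pd_bound_of_lip hu a x
    have hi2 : Integrable (fun x => pd a u x * h x) :=
      hh.integrable.bdd_mul (c := D) (measurable_pd a u).aestronglyMeasurable
        (Eventually.of_forall fun x => by simpa using pd_bound_of_lip hu a x)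
    have hi3 : Integrable (fun x => pd a u (x + (-t) • ei i) * h x) := by
      refine hh.integrable.bdd_mul (c := D)
        ((measurable_pd a u).comp (measurable_id.add_const _)).aestronglyMeasurable
        (Eventually.of_forall fun x => by simpa using pd_bound_of_lip hu a _)
    have e1 : ∫ x, pd a u x * dq i t h x = t⁻¹ * ((∫ x, pd a u x * h (x + t • ei i)) - ∫ x, pd a u x * h x) := by
      rw [← integral_sub hi1 hi2, ← integral_const_mul]
      refine integral_congr_ae (Eventually.of_forall fun x => ?_)
      simp only [dq]; ring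
    have e2 : ∫ x, pd a u x * h (x + t • ei i) = ∫ x, pd a u (x + (-t) • ei i) * h x := by
      rw [← integral_add_right_eq_self (fun x => pd a u (x + (-t) • ei i) * h x) (t • ei i)]
      refine integral_congr_ae (Eventually.of_forall fun x => ?_)
      simp only
      congr 2
      rw [add_assoc, ← add_smul]; simp
    have e3 : t⁻¹ * ((∫ x, pd a u (x + (-t) • ei i) * h x) - ∫ x, pd a u x * h x)
        = ∫ x, -(pd a (dq i (-t) u) x * h x) := by
      rw [← integral_sub hi3 hi2, ← integral_const_mul]
      refine integral_congr_ae ?_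
      have hd : ∀ᵐ x : E n, DifferentiableAt ℝ u x := hu.ae_differentiableAt
      have hd2 : ∀ᵐ x : E n, DifferentiableAt ℝ u (x + (-t) • ei i) :=
        (quasiMeasurePreserving_add_right volume ((-t) • ei i)).ae hd
      filter_upwards [hd, hd2] with x hx hx2
      rw [pd_dq a i (-t) hx2 hx, inv_neg]
      ring
    rw [e1, e2, e3, integral_neg, ibp hD' hh a, neg_neg]
    refine integral_congr_ae (Eventually.of_forall fun x => ?_)
    simp only; ring
  -- step 2: limits
  have hcomp : IsCompact (Metric.cthickening 1 (tsupport h)) := hh.2.isCompact.cthickening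
  set S := Metric.cthickening 1 (tsupport h) with hS
  have hdqh0 : ∀ t : ℝ, |t| ≤ 1 → ∀ x, x ∉ S → dq i t h x = 0 := by
    intro t ht x hx
    have hx1 : x ∉ tsupport h := fun hc => hx (Metric.self_subset_cthickening _ hc)
    have hx2 : x + t • ei i ∉ tsupport h := by
      intro hc
      refine hx (Metric.mem_cthickening_of_dist_le x (x + t • ei i) 1 _ hc ?_)
      rw [dist_eq_norm]
      simpa [norm_smul, norm_ei] using ht
    unfold dq
    rw [image_eq_zero_of_notMem_tsupport hx1, image_eq_zero_of_notMem_tsupport hx2]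
    simp
  have hfin : volume S < ⊤ := hcomp.measure_lt_top
  have lim1 : Tendsto (fun t : ℝ => ∫ x, pd a u x * dq i t h x) (𝓝[≠] 0) (𝓝 (∫ x, pd a u x * pd i h x)) := by
    refine tendsto_integral_filter_of_dominated_convergence (fun x => S.indicator (fun _ => (D : ℝ) * Kh) x) ?_ ?_ ?_ ?_
    · refine Eventually.of_forall fun t => ?_
      refine ((measurable_pd a u).aestronglyMeasurable).mul ?_
      have : Continuous (dq i t h) := by
        unfold dq
        have := hKh.continuous
        fun_prop
      exact this.aestronglyMeasurable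
    · have : ∀ᶠ t : ℝ in 𝓝[≠] 0, |t| ≤ 1 := by
        refine nhdsWithin_le_nhds ?_
        have := (continuous_abs.tendsto (0 : ℝ))
        rw [abs_zero] at this
        exact (this.eventually (gt_mem_nhds one_pos)).mono fun t ht => le_of_lt ht
      filter_upwards [this] with t ht
      refine Eventually.of_forall fun x => ?_
      by_cases hx : x ∈ S
      · rw [Set.indicator_of_mem hx, norm_mul]
        refine mul_le_mul ?_ ?_ (norm_nonneg _) D.2
        · simpa using pd_bound_of_lip hu a x
        · simpa using dq_bound hKh i t x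
      · rw [Set.indicator_of_notMem hx, hdqh0 t ht x hx]; simp
    · exact (integrable_indicator_iff hcomp.measurableSet).mpr (integrableOn_const hfin.ne)
    · filter_upwards [hKh.ae_differentiableAt] with x hx
      exact (tendsto_dq hx i).const_mul _
  have lim2 : Tendsto (fun t : ℝ => ∫ x, -(dq i (-t) u x) * (-(pd a h x))) (𝓝[≠] 0)
      (𝓝 (∫ x, pd i u x * pd a h x)) := by
    have hneg : Tendsto (fun t : ℝ => -t) (𝓝[≠] 0) (𝓝[≠] 0) := by
      refine tendsto_nhdsWithin_iff.mpr ⟨?_, ?_⟩
      · have := (continuous_neg.tendsto (0 : ℝ)).mono_left (nhdsWithin_le_nhds (s := {0}ᶜ))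
        simpa using this
      · filter_upwards [self_mem_nhdsWithin] with t ht
        simpa using ht
    refine tendsto_integral_filter_of_dominated_convergence (fun x => (D : ℝ) * |pd a h x|) ?_ ?_ ?_ ?_
    · refine Eventually.of_forall fun t => ?_
      refine AEStronglyMeasurable.mul ?_ (measurable_pd a h).aestronglyMeasurable.neg
      have : Continuous (dq i (-t) u) := by
        unfold dq
        have := hu.continuous
        fun_prop
      exact this.aestronglyMeasurable.neg
    · refine Eventually.of_forall fun t => Eventually.of_forall fun x => ?_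
      rw [norm_mul, norm_neg, norm_neg]
      exact mul_le_mul (by simpa using dq_bound hu i (-t) x) (le_of_eq rfl) (norm_nonneg _) D.2
    · exact ((hh.integrable_pd a).abs).const_mul _
    · filter_upwards [hu.ae_differentiableAt] with x hx
      have h1 := ((tendsto_dq hx i).comp hneg).neg.mul_const (-(pd a h x))
      simpa using h1
  refine tendsto_nhds_unique lim1 (lim2.congr' ?_)
  filter_upwards [self_mem_nhdsWithin] with t ht
  exact (key t ht).symm

end Vale.Agent.P254.S290
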